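import Vale.Agent.P363.K.Wr

/-!
# P363 K/Delta  (TASK)

Fix `η ∈ S` with `η.f x = β ‖x‖` (`exists_cut` with `r = 1/2`, `s = 1`, `of_C1c`), `I = ∫ η o₀ o₁ > 0` (continuous, nonnegative since `1 - ‖x‖/2 > 0` where `β ≠ 0`, positive at `0`; `Continuous.integral_pos_of_hasCompactSupport_nonneg_nonzero`).
`wr_eig` for `V0` (`qf_orb`, `fb_V0`, `abs_orb_le`): `wr η o₀ o₁ = (3/8) I`.  `pert`: `P a b - s t P a₀ b₀ = P (a - s a₀) b + s P a₀ (b - t b₀)`, `hn b ≤ 2 hn (b - t b₀) + 2 t² hn b₀`.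
Apply `pert` to `P = wr η` (`wr_bil`) and `T = pot η.f` (`fb_bdd`, `FB.bil_pot`, `FB.abs_pot_le`), errors `≤ c I / 8 ≤ s t I / 8`:  `(e₁ - e₀) T = P` (`wr_eig`), `T ∈ [7/8, 9/8] s t I`, `P ∈ [2/8, 4/8] s t I`.
If `a b ≤ 0` a.e. on `‖x‖ < 1` then `T ≤ 0`.
-/

open MeasureTheory Filter Topology Set
open scoped ContDiff

set_option linter.unusedSectionVars false

noncomputable section

namespace Vale.Agent.P363

theorem pert {P : S e3 → S e3 → ℝ} (h1 : ∀ a a' b, P (a + a') b = P a b + P a' b)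
    (h2 : ∀ (t : ℝ) a b, P (t • a) b = t * P a b) (h3 : ∀ a b b', P a (b + b') = P a b + P a b')
    (h4 : ∀ (t : ℝ) a b, P a (t • b) = t * P a b) {D : ℝ}
    (h5 : ∀ a b, |P a b| ≤ D * √(hn a) * √(hn b)) (a₀ b₀ : S e3) {ε : ℝ} (hε : 0 < ε) :
    ∃ θ : ℝ, 0 < θ ∧ ∀ (a b : S e3) (s t : ℝ), |s| ≤ 2 → |t| ≤ 2 → hn (a - s • a₀) ≤ θ →
      hn (b - t • b₀) ≤ θ → |P a b - s * t * P a₀ b₀| ≤ ε := by
  have h6 : ∀ a b, |P a b| ≤ |D| * √(hn a) * √(hn b) := fun a b =>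
    (h5 a b).trans (mul_le_mul_of_nonneg_right
      (mul_le_mul_of_nonneg_right (le_abs_self D) (Real.sqrt_nonneg _)) (Real.sqrt_nonneg _))
  obtain ⟨B, hB⟩ : ∃ B, B = √(2 + 8 * hn b₀) := ⟨_, rfl⟩
  obtain ⟨A, hA⟩ : ∃ A, A = √(hn a₀) := ⟨_, rfl⟩
  have hB0 : 0 ≤ B := hB ▸ Real.sqrt_nonneg _
  have hA0 : 0 ≤ A := hA ▸ Real.sqrt_nonneg _
  obtain ⟨K, hK⟩ : ∃ K, K = |D| * (B + 2 * A) + 1 := ⟨_, rfl⟩
  have hK0 : 0 < K := by rw [hK]; positivity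
  refine ⟨min 1 ((ε / K) ^ 2), lt_min one_pos (by positivity), fun a b s t hs ht ha hb => ?_⟩
  have e1 : P a b = P (a - s • a₀) b + s * P a₀ b := by
    rw [← h2, ← h1, sub_add_cancel]
  have e2 : P a₀ b = P a₀ (b - t • b₀) + t * P a₀ b₀ := by
    rw [← h4, ← h3, sub_add_cancel]
  have e3 : P a b - s * t * P a₀ b₀ = P (a - s • a₀) b + s * P a₀ (b - t • b₀) := by
    rw [e1, e2]
    ring
  have hδ : 0 ≤ ε / K := by positivity
  have sa : √(hn (a - s • a₀)) ≤ ε / K :=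
    Real.sqrt_le_iff.2 ⟨hδ, ha.trans (min_le_right _ _)⟩
  have sb : √(hn (b - t • b₀)) ≤ ε / K :=
    Real.sqrt_le_iff.2 ⟨hδ, hb.trans (min_le_right _ _)⟩
  have hbB : √(hn b) ≤ B := by
    rw [hB]
    refine Real.sqrt_le_sqrt ?_
    have h7 := hn_add_le (b - t • b₀) (t • b₀)
    rw [sub_add_cancel, hn_smul] at h7
    have h8 : t ^ 2 ≤ 4 := by
      have := abs_le.1 ht
      nlinarith
    have h9 := hb.trans (min_le_left _ _)
    have h10 := mul_le_mul_of_nonneg_right h8 (hn_nonneg b₀)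
    linarith
  have f1 : |P (a - s • a₀) b| ≤ |D| * (ε / K) * B :=
    (h6 _ _).trans (mul_le_mul (mul_le_mul_of_nonneg_left sa (abs_nonneg _)) hbB
      (Real.sqrt_nonneg _) (by positivity))
  have f2 : |s * P a₀ (b - t • b₀)| ≤ 2 * (|D| * A * (ε / K)) := by
    rw [abs_mul]
    refine mul_le_mul hs ((h6 _ _).trans ?_) (abs_nonneg _) (by norm_num)
    rw [← hA]
    exact mul_le_mul_of_nonneg_left sb (by positivity)
  rw [e3]
  refine (abs_add_le _ _).trans ?_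
  have f3 : ε = (|D| * (B + 2 * A) + 1) * (ε / K) := by
    rw [← hK]
    field_simp
  calc _ ≤ |D| * (ε / K) * B + 2 * (|D| * A * (ε / K)) := add_le_add f1 f2
    _ = (|D| * (B + 2 * A) + 1) * (ε / K) - ε / K := by ring
    _ ≤ ε := by rw [← f3]; linarith

theorem kde_eta : ∃ (η : S e3) (D : ℝ), (∀ x, 0 ≤ η.f x ∧ η.f x ≤ 1) ∧ (∀ x, 1 ≤ ‖x‖ → η.f x = 0) ∧
    (∀ k x, |η.g k x| ≤ D) ∧ 0 < ∫ x, η.f x * ((orb 0).f x * (orb 1).f x) := by
  obtain ⟨K, hK, h⟩ := exists_cut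
  obtain ⟨β, -, -, b1, b2, b3, -, -, -, c1, c2, c3, -⟩ := h (1 / 2) 1 (by norm_num) (by norm_num)
  refine ⟨S.of (of_C1c (c1.of_le (by simp)) c2), K / (1 - 1 / 2), fun x => b1 _,
    fun x hx => b3 _ hx, fun k x => ?_, ?_⟩
  · simp only [S.of_g]
    have h1 := (fderiv ℝ (fun x : E3 => β ‖x‖) x).le_opNorm (e3 k)
    rw [norm_e3, mul_one, Real.norm_eq_abs] at h1
    exact h1.trans (c3 x)
  · simp only [S.of_f, orb_f]
    have n0 := nrm_pos 0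
    have n1 := nrm_pos 1
    refine Continuous.integral_pos_of_hasCompactSupport_nonneg_nonzero (x := 0)
      (c1.continuous.mul (((continuous_raw 0).const_mul _).mul ((continuous_raw 1).const_mul _)))
      c2.mul_right (fun x => ?_) ?_
    · simp only [Pi.zero_apply, raw_zero, raw_one]
      rcases le_total 1 ‖x‖ with hx | hx
      · rw [b3 _ hx, zero_mul]
      · have h1 : 0 ≤ 1 - ‖x‖ / 2 := by linarith
        have h2 := (b1 ‖x‖).1
        positivity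
    · simp only [raw_zero, raw_one, norm_zero]
      rw [b2 0 (by norm_num)]
      have : (0 : ℝ) < 1 - 0 / 2 := by norm_num
      positivity

theorem level_gap {c : ℝ} (hc : 0 < c) : ∃ θ : ℝ, 0 < θ ∧ ∀ (v : E3 → ℝ) (e₀ e₁ s t C : ℝ)
    (a b : S e3), FB e3 v → Eig v e₀ a → Eig v e₁ b → (∀ᵐ x, |a.f x| ≤ C) → (∀ᵐ x, |b.f x| ≤ C) →
    1 ≤ s → s ≤ 2 → c ≤ t → t ≤ 2 → hn (a - s • orb 0) ≤ θ → hn (b - t • orb 1) ≤ θ →
    0 < e₁ - e₀ ∧ e₁ - e₀ ≤ 1 ∧ ¬ ∀ᵐ x : E3, ‖x‖ < 1 → a.f x * b.f x ≤ 0 := by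
  obtain ⟨η, D, h1, h2, h3, hI⟩ := kde_eta
  have hη : ∀ C : ℝ, ∀ᵐ x, |η.f x| ≤ max 1 C := fun C => ae_of_all _ fun x => by
    rw [abs_of_nonneg (h1 x).1]
    exact (h1 x).2.trans (le_max_left _ _)
  obtain ⟨C₀, hC₀, ho⟩ := abs_orb_le
  have hob : ∀ j, ∀ᵐ x, |(orb j).f x| ≤ max 1 C₀ := fun j => ae_of_all _ fun x => by
    refine (ho j x).1.trans (le_trans ?_ (le_max_right _ _))
    refine mul_le_of_le_one_right hC₀.le (Real.exp_le_one_iff.2 ?_)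
    have := norm_nonneg x
    linarith
  have hw0 := wr_eig fb_V0 η (hη C₀) (hob 0) (hob 1) (qf_orb 0) (qf_orb 1)
  have hl : lev 1 - lev 0 = 3 / 8 := by
    simp only [lev, if_true, if_neg (show (1 : Fin 5) ≠ 0 by decide)]
    norm_num
  rw [hl] at hw0
  obtain ⟨I, hI'⟩ : ∃ I, I = ∫ x, η.f x * ((orb 0).f x * (orb 1).f x) := ⟨_, rfl⟩
  rw [← hI'] at hI hw0
  have hε : 0 < c * I / 8 := by positivity
  obtain ⟨w1, w2, w3, w4, w5⟩ := wr_bil η h3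
  obtain ⟨θ₁, t1, p1⟩ := pert w1 w2 w3 w4 w5 (orb 0) (orb 1) hε
  have hfb : FB e3 η.f := fb_bdd η.mem.1 (hη 0)
  obtain ⟨D', -, hD'⟩ := hfb.abs_pot_le
  obtain ⟨θ₂, t2, p2⟩ := pert hfb.bil_pot.add hfb.bil_pot.smul hfb.bil_pot.add_right
    hfb.bil_pot.smul_right hD' (orb 0) (orb 1) hε
  refine ⟨min θ₁ θ₂, lt_min t1 t2, fun v e₀ e₁ s t C a b hv ea eb ha hb s1 s2 c1 c2 na nb => ?_⟩
  have hs : |s| ≤ 2 := abs_le.2 ⟨by linarith, s2⟩
  have ht : |t| ≤ 2 := abs_le.2 ⟨by linarith, c2⟩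
  have q1 := abs_le.1 (p1 a b s t hs ht (na.trans (min_le_left _ _)) (nb.trans (min_le_left _ _)))
  have q2 := abs_le.1 (p2 a b s t hs ht (na.trans (min_le_right _ _)) (nb.trans (min_le_right _ _)))
  have hw := wr_eig hv η (hη C) (ha.mono fun x hx => hx.trans (le_max_right _ _))
    (hb.mono fun x hx => hx.trans (le_max_right _ _)) ea eb
  have r1 : pot η.f (orb 0) (orb 1) = I := hI'.symm
  have r2 : ∫ x, η.f x * (a.f x * b.f x) = pot η.f a b := rfl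
  rw [r2] at hw
  rw [r1] at q2
  rw [hw0, hw] at q1
  have hu : c * I ≤ s * t * I := by
    refine mul_le_mul_of_nonneg_right ?_ hI.le
    nlinarith
  have hcI : 0 < c * I := by positivity
  have e1 : s * t * (3 / 8 * I) = 3 / 8 * (s * t * I) := by ring
  rw [e1] at q1
  have hT : 0 < pot η.f a b := by linarith [q2.1]
  refine ⟨?_, ?_, fun hneg => ?_⟩
  · have : 0 < (e₁ - e₀) * pot η.f a b := by linarith [q1.1]
    exact (mul_pos_iff_of_pos_right hT).1 this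
  · by_contra hcon
    have h4 := mul_le_mul_of_nonneg_right (not_le.1 hcon).le hT.le
    linarith [q1.2, q2.1]
  · refine absurd hT (not_lt.2 ?_)
    rw [← r2]
    refine integral_nonpos_of_ae ?_
    filter_upwards [hneg] with x hx
    rcases lt_or_ge ‖x‖ 1 with h | h
    · exact mul_nonpos_of_nonneg_of_nonpos (h1 x).1 (hx h)
    · simp only [h2 x h, zero_mul, Pi.zero_apply, le_refl]

end Vale.Agent.P363
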