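import Vale.Agent.P363.K.Fin1

/-!
# P363 K/Fin2  (TASK)

`φ > 0` a.e.: `pos_of_super` with `U = v - e₀`, `O = univ` (`qf_sub_const`, `FB.sub`, `fb_const`), `ip φ φ = 1` excludes `φ = 0` (`ip_eq_zero`).  `a = c₃ • u + ψ`, `w` from `exists_out a`, `f` from `exists_inn ψ`.
`qf_disjoint` for `U = v - e₁` and the pairs `(a - w, w)`, `(ψ - f, f)`: `Q w w = Q a w ≤ 0`, `Q f f = Q ψ f = 0`.  `ip φ f > 0`: it is `≥ 0`, and if it vanishes then `φ f = 0` a.e., so `ψ ≤ 0` a.e. on `‖x‖ < 1`, contradiction.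
`rank_contra` gives `ip φ w ≤ 0`, so `φ w = 0` a.e. (`integral_eq_zero_iff_of_nonneg_ae`), `w = 0` a.e.
`nonode_of`: `f = (-ψ)₊` (`posPart (-ψ)` with `c = 0`), equal to `-ψ` a.e. on `O = {5 < ‖x‖}`; `log_unif` with `U = v - e₁` (`qf_disjoint` for `f + ψ` and `η`); `ball p (L+1) ⊆ O` when `L + 8 ≤ ‖p‖`.
-/

open MeasureTheory Filter Topology Set
open scoped ContDiff

set_option linter.unusedSectionVars false

noncomputable section

namespace Vale.Agent.P363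

theorem kf2_pos {v : E3 → ℝ} (hv : FB e3 v) {e₀ : ℝ} {φ : S e3} (hφ : ∀ᵐ x, 0 ≤ φ.f x)
    (h1 : ip φ φ = 1) (h0 : Eig v e₀ φ) : ∀ᵐ x, 0 < φ.f x := by
  rcases pos_of_super (hv.sub (fb_const e₀)) hφ isOpen_univ convex_univ
    (fun η _ _ => by rw [qf_sub_const hv, h0 η, sub_self]) with h | h
  · have : ip φ φ = 0 := ip_eq_zero.2 (h.mono fun x hx => hx (mem_univ x))
    rw [h1] at this
    exact absurd this one_ne_zero
  · exact h.mono fun x hx => hx (mem_univ x)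

theorem kf2_zero {φ w : S e3} (hφ : ∀ᵐ x, 0 < φ.f x) (hw : ∀ᵐ x, 0 ≤ w.f x) (h : ip φ w ≤ 0) :
    ∀ᵐ x, w.f x = 0 := by
  have h0 : 0 ≤ᵐ[volume] fun x => φ.f x * w.f x := by
    filter_upwards [hφ, hw] with x h1 h2
    exact mul_nonneg h1.le h2
  have h1 : ∫ x, φ.f x * w.f x = 0 := le_antisymm h (integral_nonneg_of_ae h0)
  have h2 := (integral_eq_zero_iff_of_nonneg_ae h0 (φ.int_mul w)).1 h1
  filter_upwards [h2, hφ] with x hx h3
  exact (mul_eq_zero.1 hx).resolve_left h3.ne'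

theorem kf2_self {v : E3 → ℝ} (hv : FB e3 v) {a w : S e3} (h : ∀ᵐ x, w.f x = a.f x ∨ w.f x = 0) :
    qf v w w = qf v a w ∧ ip w w = ip a w := by
  have hd : ∀ᵐ x : E3, (a - w).f x = 0 ∨ w.f x = 0 := by
    filter_upwards [h] with x hx
    rcases hx with h | h
    · left; rw [S.sub_f, h, sub_self]
    · exact Or.inr h
  have a1 := qf_disjoint v hd
  have a2 := kf1_ip_disj hd
  rw [hv.bil_qf.sub_left] at a1
  rw [bil_ip.sub_left] at a2
  constructor <;> linarith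

theorem kf2_cases {P : Prop} [Decidable P] {w a : ℝ} (h : w = if P then max a 0 else 0) :
    0 ≤ w ∧ (w = a ∨ w = 0) := by
  split_ifs at h
  · refine ⟨h ▸ le_max_right _ _, ?_⟩
    rcases le_total a 0 with h1 | h1
    · exact Or.inr (by rw [h, max_eq_right h1])
    · exact Or.inl (by rw [h, max_eq_left h1])
  · exact ⟨h.ge, Or.inr h⟩

theorem outer_sign {v : E3 → ℝ} (hv : FB e3 v) {e₀ e₁ c₃ : ℝ} (he : e₀ < e₁) (hc : 0 < c₃)
    {φ ψ u : S e3} (hφ : ∀ᵐ x, 0 ≤ φ.f x) (h1 : ip φ φ = 1) (h0 : Eig v e₀ φ)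
    (hg : Gap v e₁ (e₁ - e₀) φ) (hψ : Eig v e₁ ψ) (hu : ∀ᵐ x, 0 ≤ u.f x)
    (hs : ∀ η : S e3, (∀ᵐ x, 0 ≤ η.f x) → qf v u η ≤ e₁ * ip u η)
    (hsh : ∀ᵐ x, x ∈ sh 4 5 → c₃ * u.f x + ψ.f x ≤ 0)
    (hp : ¬ ∀ᵐ x : E3, ‖x‖ < 1 → φ.f x * ψ.f x ≤ 0) :
    ∀ᵐ x : E3, 5 < ‖x‖ → c₃ * u.f x + ψ.f x ≤ 0 := by
  have hpos := kf2_pos hv hφ h1 h0
  obtain ⟨w, hw⟩ := exists_out (c₃ • u + ψ) hsh
  obtain ⟨f, hf⟩ := exists_inn ψ (by
    filter_upwards [hsh, hu] with x a1 a2 hx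
    have := a1 hx
    nlinarith [mul_nonneg hc.le a2])
  have hw0 : ∀ᵐ x, 0 ≤ w.f x := hw.mono fun x hx => (kf2_cases hx).1
  have hf0 : ∀ᵐ x, 0 ≤ f.f x := hf.mono fun x hx => (kf2_cases hx).1
  obtain ⟨w1, w2⟩ := kf2_self hv (hw.mono fun x hx => (kf2_cases hx).2)
  obtain ⟨f1, f2⟩ := kf2_self hv (hf.mono fun x hx => (kf2_cases hx).2)
  have hww : qf v w w ≤ e₁ * ip w w := by
    rw [w1, w2, hv.bil_qf.add, hv.bil_qf.smul, bil_ip.add, bil_ip.smul, hψ w]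
    have := mul_le_mul_of_nonneg_left (hs w hw0) hc.le
    linarith
  have hff : qf v f f ≤ e₁ * ip f f := by rw [f1, f2, hψ f]
  have hpf : 0 < ip φ f := by
    by_contra hn
    refine hp ?_
    filter_upwards [kf2_zero hpos hf0 (not_lt.1 hn), hf, hpos] with x a1 a2 a3 hx
    rw [a1, if_pos (by linarith)] at a2
    have : ψ.f x ≤ 0 := by rw [a2]; exact le_max_left _ _
    exact mul_nonpos_of_nonneg_of_nonpos a3.le this
  have hz := kf2_zero hpos hw0 (rank_contra hv he h0 hg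
    (hf.mono fun x hx h4 => by rw [hx, if_neg (not_lt.2 h4)])
    (hw.mono fun x hx h5 => by rw [hx, if_neg (not_lt.2 h5)]) hff hww hpf)
  filter_upwards [hz, hw] with x a1 a2 hx
  rw [a1, if_pos hx] at a2
  have : (c₃ • u + ψ).f x ≤ 0 := by rw [a2]; exact le_max_left _ _
  exact this

theorem nonode_of {v : E3 → ℝ} (hv : FB e3 v) {e₁ c₃ C : ℝ} (hc : 0 < c₃) {ψ : S e3}
    (hψ : Eig v e₁ ψ) {ρ : E3 → ℝ} (hle : ∀ᵐ x, |ψ.f x| ≤ C * √(ρ x))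
    (ho : ∀ᵐ x : E3, 5 < ‖x‖ → c₃ * √(ρ x) + ψ.f x ≤ 0) : NoNode ρ := by
  obtain ⟨-, f, -, hf, -⟩ := exists_pos ψ
  have hf0 : ∀ᵐ x, 0 ≤ f.f x := Eventually.of_forall fun x => by rw [hf]; exact le_max_right _ _
  have he : ∀ᵐ x : E3, 5 < ‖x‖ → f.f x = -ψ.f x := by
    filter_upwards [ho] with x hx h5
    have := mul_nonneg hc.le (Real.sqrt_nonneg (ρ x))
    rw [hf, max_eq_left (by linarith [hx h5])]
  refine ⟨f, c₃, C, hc, hf0, ?_, fun L hL => ?_⟩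
  · filter_upwards [ho, he, hle] with x a1 a2 a3 hx
    have h5 : 5 < ‖x‖ := by linarith
    rw [a2 h5]
    exact ⟨by linarith [a1 h5], (neg_le_abs _).trans a3⟩
  · have hU := hv.sub (fb_const e₁)
    obtain ⟨K, hK⟩ := log_unif hU hf0 (O := {x : E3 | 5 < ‖x‖}) (fun η _ h2 => by
      have hd : ∀ᵐ x : E3, (f + ψ).f x = 0 ∨ η.f x = 0 := by
        filter_upwards [he, h2] with x a1 a2
        by_cases h5 : 5 < ‖x‖
        · left; rw [S.add_f, a1 h5, neg_add_cancel]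
        · exact Or.inr (a2 h5)
      have a1 := qf_disjoint (fun x => v x - e₁) hd
      rw [hU.bil_qf.add, qf_sub_const hv e₁ ψ, hψ η] at a1
      linarith) hL
    refine ⟨K, fun p hp ε hε => hK p (fun x hx => ?_) ε hε⟩
    have a1 : ‖x - p‖ < L + 1 := by simpa [dist_eq_norm] using hx
    have a2 : ‖p‖ ≤ ‖x‖ + ‖x - p‖ := by
      have := norm_sub_le x (x - p)
      rwa [sub_sub_cancel] at this
    show 5 < ‖x‖
    linarith

end Vale.Agent.P363
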