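import Vale.Agent.P363.K.Defs

/-!
# P363 K/Mat2  (TASK)

`w` = indicator of `ball 0 r` (`Set.indicator _ 1`), `a i j = ∫ w oᵢ oⱼ`, `V = volume.real (ball 0 r) > 0`.  For `r ≤ 1`: `a 1 1 ≥ m V` (`o₁ ≥ nrm 1 * (1/2) * exp (-1/2)` on the ball), `|a i j| ≤ D r V` if `2 ≤ i` or `2 ≤ j`
(`|raw (k+2) x| ≤ ‖x‖`, `abs_orb_le`), `|a i j| ≤ 1` always.  `dens_expand` for `A` and `A'` (the integrals `∫ w n` agree, `∫ n = 4`):
`|G11 - G'11| a 1 1 ≤ |G00 - G'00| + 2 |G01 - G'01| + 21 * 4 * D r V + 2 (4 √θ + θ)` (`Four.abs_G_le`, `Four.G_le`, `G_symm`).  Choose `r` with `84 D r ≤ m θ'/2`, then `θ`.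
-/

open MeasureTheory Filter Topology Set
open scoped ContDiff

set_option linter.unusedSectionVars false

noncomputable section

namespace Vale.Agent.P363

theorem km2_ind (r : ℝ) (h : E3 → ℝ) :
    ∫ x, (Metric.ball (0 : E3) r).indicator (fun _ => (1 : ℝ)) x * h x =
      ∫ x in Metric.ball (0 : E3) r, h x := by
  rw [← integral_indicator measurableSet_ball]
  congr 1
  funext x
  by_cases hx : x ∈ Metric.ball (0 : E3) r <;> simp [hx]

theorem km2_p (i : Fin 5) (hi : 2 ≤ i) (x : E3) : |(orb i).f x| ≤ nrm 4 * ‖x‖ := by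
  obtain ⟨k, rfl⟩ : ∃ k : Fin 3, i = k.addNat 2 := by
    fin_cases i
    · exact absurd hi (by decide)
    · exact absurd hi (by decide)
    · exact ⟨0, rfl⟩
    · exact ⟨1, rfl⟩
    · exact ⟨2, rfl⟩
  rw [orb_f, raw_p, nrm_p, abs_mul, abs_mul, abs_of_pos (nrm_pos 4), abs_of_pos (Real.exp_pos _)]
  refine mul_le_mul_of_nonneg_left ?_ (nrm_pos 4).le
  have h1 : |x k| ≤ ‖x‖ := by simpa using PiLp.norm_apply_le x k
  have h2 : Real.exp (-‖x‖ / 2) ≤ 1 :=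
    Real.exp_le_one_iff.mpr (by have := norm_nonneg x; linarith)
  calc |x k| * Real.exp (-‖x‖ / 2) ≤ ‖x‖ * 1 :=
        mul_le_mul h1 h2 (Real.exp_pos _).le (norm_nonneg _)
    _ = ‖x‖ := mul_one _

theorem ball_coef : ∃ m D : ℝ, 0 < m ∧ 0 < D ∧ ∀ r : ℝ, 0 < r → r ≤ 1 → ∃ (w : E3 → ℝ) (V : ℝ),
    Measurable w ∧ (∀ x, |w x| ≤ 1) ∧ 0 < V ∧
    m * V ≤ ∫ x, w x * ((orb 1).f x * (orb 1).f x) ∧
    (∀ i j : Fin 5, |∫ x, w x * ((orb i).f x * (orb j).f x)| ≤ 1) ∧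
    ∀ i j : Fin 5, 2 ≤ i ∨ 2 ≤ j → |∫ x, w x * ((orb i).f x * (orb j).f x)| ≤ D * r * V := by
  obtain ⟨C, hC, hb⟩ := abs_orb_le
  have hb' : ∀ j x, |(orb j).f x| ≤ C := fun j x => by
    have h2 : Real.exp (-‖x‖ / 4) ≤ 1 :=
      Real.exp_le_one_iff.mpr (by have := norm_nonneg x; linarith)
    exact (hb j x).1.trans (by nlinarith)
  have hc : 0 < nrm 1 * (1 / 2 * Real.exp (-1 / 2)) := mul_pos (nrm_pos 1) (by positivity)
  refine ⟨(nrm 1 * (1 / 2 * Real.exp (-1 / 2))) ^ 2, nrm 4 * C, pow_pos hc 2,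
    mul_pos (nrm_pos 4) hC, fun r hr hr1 => ?_⟩
  have hfin : volume (Metric.ball (0 : E3) r) < ⊤ := measure_ball_lt_top
  have hw : Measurable ((Metric.ball (0 : E3) r).indicator fun _ => (1 : ℝ)) :=
    measurable_const.indicator measurableSet_ball
  have hw1 : ∀ x, |(Metric.ball (0 : E3) r).indicator (fun _ => (1 : ℝ)) x| ≤ 1 := fun x => by
    by_cases hx : x ∈ Metric.ball (0 : E3) r <;> simp [hx]
  refine ⟨_, volume.real (Metric.ball (0 : E3) r), hw, hw1,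
    ENNReal.toReal_pos (Metric.measure_ball_pos volume _ hr).ne' hfin.ne, ?_, fun i j => ?_,
    fun i j hij => ?_⟩
  · rw [km2_ind]
    have h1 : ∫ _ in Metric.ball (0 : E3) r, (nrm 1 * (1 / 2 * Real.exp (-1 / 2))) ^ 2 =
        (nrm 1 * (1 / 2 * Real.exp (-1 / 2))) ^ 2 * volume.real (Metric.ball (0 : E3) r) := by
      rw [setIntegral_const, smul_eq_mul, mul_comm]
    rw [← h1]
    refine setIntegral_mono_on (integrableOn_const hfin.ne) ((orb 1).int_mul (orb 1)).integrableOn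
      measurableSet_ball fun x hx => ?_
    have hx1 : ‖x‖ ≤ 1 := (mem_ball_zero_iff.mp hx).le.trans hr1
    have h2 : nrm 1 * (1 / 2 * Real.exp (-1 / 2)) ≤ (orb 1).f x := by
      rw [orb_f, raw_one]
      refine mul_le_mul_of_nonneg_left ?_ (nrm_pos 1).le
      exact mul_le_mul (by linarith) (Real.exp_le_exp.mpr (by linarith)) (Real.exp_pos _).le
        (by linarith)
    rw [sq]
    exact mul_self_le_mul_self hc.le h2
  · have hfb : FB e3 ((Metric.ball (0 : E3) r).indicator fun _ => (1 : ℝ)) :=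
      fb_bdd hw.aestronglyMeasurable (Eventually.of_forall hw1)
    have h := hfb.bil_pot.polar bil_ip (fib3_pot_le hw hw1) (orb i) (orb j)
    rw [ip_orb, ip_orb, if_pos rfl, if_pos rfl, Real.sqrt_one, mul_one] at h
    exact h
  · rw [km2_ind, ← Real.norm_eq_abs]
    refine norm_setIntegral_le_of_norm_le_const hfin fun x hx => ?_
    have hx1 : nrm 4 * ‖x‖ ≤ nrm 4 * r :=
      mul_le_mul_of_nonneg_left (mem_ball_zero_iff.mp hx).le (nrm_pos 4).le
    have hp : 0 ≤ nrm 4 * r := (mul_pos (nrm_pos 4) hr).le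
    rw [Real.norm_eq_abs, abs_mul]
    rcases hij with h | h
    · calc |(orb i).f x| * |(orb j).f x| ≤ nrm 4 * r * C :=
            mul_le_mul ((km2_p i h x).trans hx1) (hb' j x) (abs_nonneg _) hp
        _ = nrm 4 * C * r := by ring
    · calc |(orb i).f x| * |(orb j).f x| ≤ C * (nrm 4 * r) :=
            mul_le_mul (hb' i x) ((km2_p j h x).trans hx1) (abs_nonneg _) hC.le
        _ = nrm 4 * C * r := by ring

theorem km2_sum {d : Fin 5 → Fin 5 → ℝ} {e t u : ℝ} (h00 : |d 0 0| ≤ t) (h01 : |d 0 1| ≤ t)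
    (h10 : |d 1 0| ≤ t) (he : ∀ i j : Fin 5, 2 ≤ i ∨ 2 ≤ j → |d i j| ≤ e)
    (hs : |∑ i, ∑ j, d i j| ≤ u) : |d 1 1| ≤ 3 * t + 21 * e + u := by
  simp only [Fin.sum_univ_five] at hs
  have e02 := abs_le.1 (he 0 2 (by decide))
  have e03 := abs_le.1 (he 0 3 (by decide))
  have e04 := abs_le.1 (he 0 4 (by decide))
  have e12 := abs_le.1 (he 1 2 (by decide))
  have e13 := abs_le.1 (he 1 3 (by decide))
  have e14 := abs_le.1 (he 1 4 (by decide))
  have e20 := abs_le.1 (he 2 0 (by decide))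
  have e21 := abs_le.1 (he 2 1 (by decide))
  have e22 := abs_le.1 (he 2 2 (by decide))
  have e23 := abs_le.1 (he 2 3 (by decide))
  have e24 := abs_le.1 (he 2 4 (by decide))
  have e30 := abs_le.1 (he 3 0 (by decide))
  have e31 := abs_le.1 (he 3 1 (by decide))
  have e32 := abs_le.1 (he 3 2 (by decide))
  have e33 := abs_le.1 (he 3 3 (by decide))
  have e34 := abs_le.1 (he 3 4 (by decide))
  have e40 := abs_le.1 (he 4 0 (by decide))
  have e41 := abs_le.1 (he 4 1 (by decide))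
  have e42 := abs_le.1 (he 4 2 (by decide))
  have e43 := abs_le.1 (he 4 3 (by decide))
  have e44 := abs_le.1 (he 4 4 (by decide))
  have a0 := abs_le.1 h00
  have a1 := abs_le.1 h01
  have a2 := abs_le.1 h10
  have a3 := abs_le.1 hs
  exact abs_le.2 ⟨by linarith [a0.2, a1.2, a2.2, a3.1, e02.2, e03.2, e04.2,
    e12.2, e13.2, e14.2,
    e20.2, e21.2, e22.2, e23.2, e24.2,
    e30.2, e31.2, e32.2, e33.2, e34.2,
    e40.2, e41.2, e42.2, e43.2, e44.2],
    by linarith [a0.1, a1.1, a2.1, a3.2, e02.1, e03.1, e04.1,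
    e12.1, e13.1, e14.1,
    e20.1, e21.1, e22.1, e23.1, e24.1,
    e30.1, e31.1, e32.1, e33.1, e34.1,
    e40.1, e41.1, e42.1, e43.1, e44.1]⟩

theorem km2_err {Y : Type} [MeasurableSpace Y] {ν : Measure Y} [SFinite ν] {A : Fib ν} {s : ℝ}
    (hs : 0 ≤ s) (hA : A.Near (s ^ 2)) {w : E3 → ℝ} (hw : Measurable w) (h1 : ∀ x, |w x| ≤ 1) :
    |(∫ x, w x * A.n x) - ∑ i, ∑ j, A.G i j * ∫ x, w x * ((orb i).f x * (orb j).f x)| ≤
      4 * s + s ^ 2 := by
  have h := A.dens_expand hw h1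
  have h4 : √(∫ x, A.n x) = 2 := by
    rw [hA.four.1, show (4 : ℝ) = 2 ^ 2 by norm_num, Real.sqrt_sq (by norm_num)]
  have h5 : √A.defect ≤ s := by
    rw [← Real.sqrt_sq hs]
    exact Real.sqrt_le_sqrt hA.defect
  rw [h4] at h
  have h6 := hA.defect
  exact h.trans (by linarith)

theorem g11_close {θ' : ℝ} (hθ : 0 < θ') : ∃ θ : ℝ, 0 < θ ∧
    ∀ (Y Y' : Type) [MeasurableSpace Y] [MeasurableSpace Y'] (ν : Measure Y) (ν' : Measure Y')
      [SFinite ν] [SFinite ν'] (A : Fib ν) (A' : Fib ν'), A.Near θ → A'.Near θ →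
      A.n =ᵐ[volume] A'.n → |A.G 1 1 - A'.G 1 1| ≤ θ' := by
  obtain ⟨m, D, hm, hD, h⟩ := ball_coef
  obtain ⟨r, hr, hr1, hr2⟩ : ∃ r : ℝ, 0 < r ∧ r ≤ 1 ∧ D * r ≤ m * θ' / 200 := by
    refine ⟨min 1 (m * θ' / 200 / D), lt_min one_pos (by positivity), min_le_left _ _, ?_⟩
    calc D * min 1 (m * θ' / 200 / D) ≤ D * (m * θ' / 200 / D) :=
          mul_le_mul_of_nonneg_left (min_le_right _ _) hD.le
      _ = m * θ' / 200 := by field_simp
  obtain ⟨w, V, hw, hw1, hV, h11, ha, hp⟩ := h r hr hr1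
  obtain ⟨s, hs, hs1, hs2⟩ : ∃ s : ℝ, 0 < s ∧ s ≤ 1 ∧ s ≤ m * V * θ' / 40 :=
    ⟨min 1 (m * V * θ' / 40), lt_min one_pos (by positivity), min_le_left _ _, min_le_right _ _⟩
  refine ⟨s ^ 2, by positivity, fun Y Y' _ _ ν ν' _ _ A A' hA hA' hn => ?_⟩
  have e1 := km2_err hs.le hA hw hw1
  have e2 := km2_err hs.le hA' hw hw1
  have e3 : ∫ x, w x * A.n x = ∫ x, w x * A'.n x :=
    integral_congr_ae (hn.mono fun x hx => by simp only [hx])
  set a : Fin 5 → Fin 5 → ℝ := fun i j => ∫ x, w x * ((orb i).f x * (orb j).f x) with ha_def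
  have hb : ∀ (i j : Fin 5) (t : ℝ), |A.G i j - A'.G i j| ≤ t → |(A.G i j - A'.G i j) * a i j| ≤ t :=
    fun i j t ht => by
      rw [abs_mul]
      calc _ ≤ t * 1 := mul_le_mul ht (ha i j) (abs_nonneg _) ((abs_nonneg _).trans ht)
        _ = t := mul_one _
  have hsq : 0 ≤ s ^ 2 := sq_nonneg s
  have h01 : |A.G 0 1 - A'.G 0 1| ≤ 2 * s ^ 2 := by
    have h1 := abs_le.1 (hA.g0j 1 (by decide))
    have h2 := abs_le.1 (hA'.g0j 1 (by decide))
    exact abs_le.2 ⟨by linarith [h1.1, h2.2], by linarith [h1.2, h2.1]⟩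
  have key := km2_sum (d := fun i j => (A.G i j - A'.G i j) * a i j) (e := 4 * (D * r * V))
    (t := 2 * s ^ 2) (u := 2 * (4 * s + s ^ 2))
    (hb 0 0 _ (abs_le.2 ⟨by linarith [hA.g00, hA'.four.G_le 0],
      by linarith [hA'.g00, hA.four.G_le 0]⟩))
    (hb 0 1 _ h01) (hb 1 0 _ (by rw [A.G_symm 1 0, A'.G_symm 1 0]; exact h01))
    (fun i j hij => by
      have h1 := abs_le.1 (hA.four.abs_G_le i j)
      have h2 := abs_le.1 (hA'.four.abs_G_le i j)
      rw [abs_mul]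
      exact mul_le_mul (abs_le.2 ⟨by linarith [h1.1, h2.2], by linarith [h1.2, h2.1]⟩)
        (hp i j hij) (abs_nonneg _) (by norm_num))
    (by
      simp only [sub_mul, Finset.sum_sub_distrib]
      have h1 := abs_le.1 e1
      have h2 := abs_le.1 e2
      exact abs_le.2 ⟨by linarith [h1.2, h2.1], by linarith [h1.1, h2.2]⟩)
  have hmV : 0 < m * V := mul_pos hm hV
  have h11' : m * V ≤ a 1 1 := h11
  rw [abs_mul, abs_of_pos (hmV.trans_le h11')] at key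
  have k1 : |A.G 1 1 - A'.G 1 1| * (m * V) ≤ |A.G 1 1 - A'.G 1 1| * a 1 1 :=
    mul_le_mul_of_nonneg_left h11' (abs_nonneg _)
  have k2 : D * r * V ≤ m * θ' / 200 * V := mul_le_mul_of_nonneg_right hr2 hV.le
  have k3 : s ^ 2 ≤ s := by nlinarith
  have k4 : 0 < m * V * θ' := mul_pos hmV hθ
  refine le_of_mul_le_mul_right ?_ hmV
  nlinarith

end Vale.Agent.P363
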