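import Vale.Agent.P363.K.Defs

/-!
# P363 K/Mat3  (TASK)

`w x = if ‖x‖ < 1 then sign (x k) else 0` (e.g. `if ‖x‖ < 1 then (if 0 < x k then 1 else if x k < 0 then -1 else 0) else 0`), odd under `rf k`, even under `rf l`, `l ≠ k` (`rf_apply`, `norm_rf`).
Parity (`exists_sym_rf`, `Sym.integral_odd`, `orb_rf`) kills `∫ w oᵢ oⱼ` unless one index is `k + 2` and the other is `0` or `1`.  `∫ w o₁ o_{k+2} = ∫_{‖x‖<1} nrm nrm |x k| (1 - ‖x‖/2) e^{-‖x‖} > 0`
(`raw_p`, `integral_pos_iff_support_of_nonneg_ae` or compare with a continuous function; `ae_coord_ne`).  `g1k_small`: `∫ w n = 0` by parity, `dens_expand`: `|2 G(0,k+2) a + 2 G(1,k+2) b| ≤ 4 √θ + θ`; take the minimum over the three `k`.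
-/

open MeasureTheory Filter Topology Set
open scoped ContDiff

set_option linter.unusedSectionVars false

noncomputable section

namespace Vale.Agent.P363

theorem km3_odd {w : E3 → ℝ} (l : Fin 3) (s : ℝ) (hw : ∀ x, w (rf l x) = s * w x) (i j : Fin 5)
    (h : s * ((if i = l.addNat 2 then -1 else 1) * (if j = l.addNat 2 then -1 else 1)) = -1) :
    ∫ x, w x * ((orb i).f x * (orb j).f x) = 0 := by
  obtain ⟨T, hT⟩ := exists_sym_rf l
  refine hT.integral_odd (ae_of_all _ fun x => ?_)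
  rw [hw, orb_rf, orb_rf]
  linear_combination (w x * ((orb i).f x * (orb j).f x)) * h

theorem km3_abs {w : E3 → ℝ} (hw : Measurable w) (h1 : ∀ x, |w x| ≤ 1) (i j : Fin 5) :
    |∫ x, w x * ((orb i).f x * (orb j).f x)| ≤ 1 := by
  have hi := (fb_bdd (e := e3) hw.aestronglyMeasurable (ae_of_all _ h1)).int (orb i) (orb j)
  refine abs_integral_le_integral_abs.trans ?_
  have h2 : ∫ x, |w x * ((orb i).f x * (orb j).f x)| ≤
      ∫ x, 1 / 2 * ((orb i).f x ^ 2 + (orb j).f x ^ 2) := by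
    refine integral_mono hi.abs ((((orb i).int_sq).add (orb j).int_sq).const_mul _) fun x => ?_
    have h3 : |(orb i).f x * (orb j).f x| ≤ 1 / 2 * ((orb i).f x ^ 2 + (orb j).f x ^ 2) :=
      abs_le.2 ⟨by nlinarith [sq_nonneg ((orb i).f x + (orb j).f x)],
        by nlinarith [sq_nonneg ((orb i).f x - (orb j).f x)]⟩
    show |w x * ((orb i).f x * (orb j).f x)| ≤ _
    rw [abs_mul]
    exact (mul_le_of_le_one_left (abs_nonneg _) (h1 x)).trans h3
  rw [integral_const_mul, integral_add (orb i).int_sq (orb j).int_sq, ← ip_self, ← ip_self,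
    ip_orb, ip_orb, if_pos rfl, if_pos rfl] at h2
  linarith

theorem km3_sum (p : Fin 5) (hp : p = 2 ∨ p = 3 ∨ p = 4) (T : Fin 5 → Fin 5 → ℝ)
    (hs : ∀ i j, T i j = T j i)
    (h0 : ∀ i j, ¬ (i = p ∧ j ≤ 1) → ¬ (j = p ∧ i ≤ 1) → T i j = 0) :
    ∑ i, ∑ j, T i j = 2 * T 0 p + 2 * T 1 p := by
  have e0 := hs p 0
  have e1 := hs p 1
  rcases hp with rfl | rfl | rfl <;>
  · simp (disch := decide) only [Fin.sum_univ_five, h0]
    linarith

theorem sign_coef (k : Fin 3) : ∃ w : E3 → ℝ, Measurable w ∧ (∀ x, |w x| ≤ 1) ∧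
    (∀ x, w (rf k x) = -w x) ∧ 0 < ∫ x, w x * ((orb 1).f x * (orb (k.addNat 2)).f x) ∧
    (∀ i j : Fin 5, |∫ x, w x * ((orb i).f x * (orb j).f x)| ≤ 1) ∧
    ∀ i j : Fin 5, ¬ (i = k.addNat 2 ∧ j ≤ 1) → ¬ (j = k.addNat 2 ∧ i ≤ 1) →
      ∫ x, w x * ((orb i).f x * (orb j).f x) = 0 := by
  let w : E3 → ℝ := fun x => if ‖x‖ < 1 then Real.sign (x k) else 0
  have hc : Measurable fun x : E3 => x k := (contDiff_coord k).continuous.measurable
  have hm : Measurable w := by
    refine Measurable.ite (measurableSet_lt measurable_norm measurable_const) ?_ measurable_const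
    unfold Real.sign
    exact Measurable.ite (measurableSet_lt hc measurable_const) measurable_const
      (Measurable.ite (measurableSet_lt measurable_const hc) measurable_const measurable_const)
  have h1 : ∀ x, |w x| ≤ 1 := by
    intro x
    simp only [w]
    split_ifs
    · rcases Real.sign_apply_eq (x k) with h | h | h <;> simp [h]
    · simp
  have hk : ∀ x, w (rf k x) = -w x := by
    intro x
    simp only [w, norm_rf, rf_apply, if_true, Real.sign_neg]
    split_ifs <;> simp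
  have hl : ∀ l, l ≠ k → ∀ x, w (rf l x) = 1 * w x := by
    intro l hl x
    simp only [w, norm_rf, rf_apply, if_neg hl.symm, one_mul]
  refine ⟨w, hm, h1, hk, ?_, km3_abs hm h1, fun i j hi hj => ?_⟩
  · have hi := (fb_bdd (e := e3) hm.aestronglyMeasurable (ae_of_all _ h1)).int
      (orb 1) (orb (k.addNat 2))
    have e : ∀ x, w x * ((orb 1).f x * (orb (k.addNat 2)).f x) = w x * x k *
        (1 - ‖x‖ / 2) * (nrm 1 * nrm (k.addNat 2) * Real.exp (-‖x‖ / 2) * Real.exp (-‖x‖ / 2)) := by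
      intro x
      rw [orb_f, orb_f, raw_one, raw_p]; ring
    have hp : ∀ x : E3,
        0 < nrm 1 * nrm (k.addNat 2) * Real.exp (-‖x‖ / 2) * Real.exp (-‖x‖ / 2) := fun x =>
      mul_pos (mul_pos (mul_pos (nrm_pos _) (nrm_pos _)) (Real.exp_pos _)) (Real.exp_pos _)
    rw [integral_pos_iff_support_of_nonneg (fun x => ?_) hi]
    · have ho : IsOpen {x : E3 | ‖x‖ < 1 ∧ 0 < x k} :=
        (isOpen_lt continuous_norm continuous_const).inter
          (isOpen_lt continuous_const (contDiff_coord k).continuous)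
      have hne : ({x : E3 | ‖x‖ < 1 ∧ 0 < x k}).Nonempty := by
        refine ⟨(1 / 2 : ℝ) • e3 k, ?_, ?_⟩
        · rw [norm_smul, norm_e3]; norm_num
        · show 0 < (1 / 2 : ℝ) * e3 k k
          rw [e3_apply, if_pos rfl]; norm_num
      refine (ho.measure_pos volume hne).trans_le (measure_mono fun x hx => ?_)
      rw [Function.mem_support, e]
      have h2 : w x = 1 := by
        simp only [w, if_pos hx.1, Real.sign_of_pos hx.2]
      rw [h2, one_mul]
      exact (mul_pos (mul_pos hx.2 (by linarith [hx.1])) (hp x)).ne'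
    · show 0 ≤ w x * ((orb 1).f x * (orb (k.addNat 2)).f x)
      rw [e]
      simp only [w]
      split_ifs with h
      · exact mul_nonneg (mul_nonneg (Real.sign_mul_nonneg _) (by linarith)) (hp x).le
      · simp
  · have hk' : ∀ x, w (rf k x) = -1 * w x := fun x => by rw [hk, neg_one_mul]
    have aux : ∀ i : Fin 5, ¬ i ≤ 1 → ∃ l : Fin 3, i = l.addNat 2 := by decide
    have inj : ∀ k l : Fin 3, k.addNat 2 = l.addNat 2 → k = l := by decide
    by_cases h2 : i = k.addNat 2 <;> by_cases h3 : j = k.addNat 2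
    · exact km3_odd k _ hk' i j (by rw [if_pos h2, if_pos h3]; norm_num)
    · obtain ⟨l, rfl⟩ := aux j fun h => hi ⟨h2, h⟩
      have h4 : l ≠ k := fun h => h3 (by rw [h])
      refine km3_odd l _ (hl l h4) _ _ ?_
      rw [if_neg fun h => h4 (inj _ _ (h2.symm.trans h)).symm, if_pos rfl]; norm_num
    · obtain ⟨l, rfl⟩ := aux i fun h => hj ⟨h3, h⟩
      have h4 : l ≠ k := fun h => h2 (by rw [h])
      refine km3_odd l _ (hl l h4) _ _ ?_
      rw [if_pos rfl, if_neg fun h => h4 (inj _ _ (h3.symm.trans h)).symm]; norm_num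
    · exact km3_odd k _ hk' i j (by rw [if_neg h2, if_neg h3]; norm_num)

theorem g1k_small {θ' : ℝ} (hθ : 0 < θ') : ∃ θ : ℝ, 0 < θ ∧
    ∀ (Y : Type) [MeasurableSpace Y] (ν : Measure Y) [SFinite ν] (A : Fib ν), A.Near θ →
      (∀ k, ∀ᵐ x, A.n (rf k x) = A.n x) → ∀ k : Fin 3, |A.G 1 (k.addNat 2)| ≤ θ' := by
  choose w hm h1 hk hp hb h0 using sign_coef
  obtain ⟨m, hm0, hmk⟩ : ∃ m : ℝ, 0 < m ∧
      ∀ k, m ≤ ∫ x, w k x * ((orb 1).f x * (orb (k.addNat 2)).f x) := by
    obtain ⟨k₀, -, hk₀⟩ := Finset.exists_min_image Finset.univ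
      (fun k => ∫ x, w k x * ((orb 1).f x * (orb (k.addNat 2)).f x)) Finset.univ_nonempty
    exact ⟨_, hp k₀, fun k => hk₀ k (Finset.mem_univ k)⟩
  obtain ⟨t, ht0, ht1, ht2⟩ : ∃ t : ℝ, 0 < t ∧ t ≤ 1 ∧ 7 * t ≤ 2 * m * θ' :=
    ⟨min 1 (2 * m * θ' / 7), lt_min one_pos (by positivity), min_le_left _ _,
      by linarith [min_le_right 1 (2 * m * θ' / 7)]⟩
  refine ⟨t ^ 2, by positivity, fun Y _ ν _ A hA hn k => ?_⟩
  have h2 := A.dens_expand (hm k) (h1 k)
  have h3 : ∫ x, w k x * A.n x = 0 := by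
    obtain ⟨T, hT⟩ := exists_sym_rf k
    refine hT.integral_odd ((hn k).mono fun x hx => ?_)
    rw [hk, hx, neg_mul]
  have aux : ∀ k : Fin 3, k.addNat 2 = 2 ∨ k.addNat 2 = 3 ∨ k.addNat 2 = 4 := by decide
  have h4 := km3_sum (k.addNat 2) (aux k)
    (fun i j => A.G i j * ∫ x, w k x * ((orb i).f x * (orb j).f x))
    (fun i j => by
      rw [A.G_symm i j]
      simp only [mul_comm ((orb i).f _)])
    (fun i j hi hj => by rw [h0 k i j hi hj, mul_zero])
  have h5 : √A.defect ≤ t := by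
    rw [← Real.sqrt_sq ht0.le]; exact Real.sqrt_le_sqrt hA.defect
  have h6 : √(4 : ℝ) = 2 := by
    rw [show (4 : ℝ) = 2 ^ 2 by norm_num, Real.sqrt_sq (by norm_num)]
  rw [h3, hA.four.1, h6, zero_sub, abs_neg] at h2
  replace h2 := (congrArg abs h4).symm.le.trans h2
  have h7 : |A.G 0 (k.addNat 2) * ∫ x, w k x * ((orb 0).f x * (orb (k.addNat 2)).f x)| ≤
      t ^ 2 := by
    rw [abs_mul]
    refine (mul_le_of_le_one_right (abs_nonneg _) (hb k _ _)).trans (hA.g0j _ ?_)
    rcases aux k with h | h | h <;> rw [h] <;> decide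
  have h8 : t ^ 2 ≤ t := by nlinarith
  have h9 : |A.G 1 (k.addNat 2)| * m ≤
      |A.G 1 (k.addNat 2) * ∫ x, w k x * ((orb 1).f x * (orb (k.addNat 2)).f x)| := by
    rw [abs_mul, abs_of_pos (hp k)]
    exact mul_le_mul_of_nonneg_left (hmk k) (abs_nonneg _)
  have h10 : |A.G 1 (k.addNat 2) * ∫ x, w k x * ((orb 1).f x * (orb (k.addNat 2)).f x)| ≤
      m * θ' := by
    have := hA.defect
    rw [abs_le] at h2 h7 ⊢
    constructor <;> linarith [h2.1, h2.2, h7.1, h7.2]
  exact le_of_mul_le_mul_right (by linarith) hm0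

end Vale.Agent.P363
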