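import Vale.Agent.P363.K.Defs

/-!
# P363 K/Mat1  (TASK)

`near_of_en`: `defect_le` with `hyd_lower` (`c₀ = 1/8`, `c₁ = 3/8`, `fb_V0`): `γ defect ≤ -5/4 + η + 1/2 + (3/8) G00`, `G00 ≤ 2` (`Four.G_le`), `defect_nonneg`.  `T a b = 2 ip a b - gam a b` is `Bil`, nonnegative (`Four.gam_le`);
`Bil.cs` at `orb 0`, `orb j`: `G0j² ≤ (2 - G00) 2`.  `hn_sub_orb`: `a - t • orb i = rem a + ∑ j, (ip (orb j) a - ite ..) • orb j`, `hn_add_le`, `hn_smul` (expand `Fin.sum_univ_five`, or Cauchy-Schwarz).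
`app_close`: `hn_sub_orb`, `ip_app`, `hn_rem_app`, `G_symm`; the indices `2,3,4` are `(k.addNat 2)` for `k = 0,1,2` (`rfl`).
-/

open MeasureTheory Filter Topology Set
open scoped ContDiff

set_option linter.unusedSectionVars false

noncomputable section

namespace Vale.Agent.P363

theorem km1_sum {κ : Type} (v : κ → S e3) (s : Finset κ) : ∃ D : ℝ, 0 < D ∧ ∀ c : κ → ℝ,
    hn (∑ j ∈ s, c j • v j) ≤ D * ∑ j ∈ s, c j ^ 2 := by
  classical
  induction s using Finset.induction_on with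
  | empty =>
    refine ⟨1, one_pos, fun c => ?_⟩
    have h := hn_smul (0 : ℝ) (0 : S e3)
    rw [zero_smul] at h
    rw [Finset.sum_empty, Finset.sum_empty, h]
    norm_num
  | insert j s hj ih =>
    obtain ⟨D, hD, h⟩ := ih
    have hv := hn_nonneg (v j)
    refine ⟨2 * hn (v j) + 2 * D, by positivity, fun c => ?_⟩
    rw [Finset.sum_insert hj, Finset.sum_insert hj]
    have h1 := hn_add_le (c j • v j) (∑ j ∈ s, c j • v j)
    rw [hn_smul] at h1
    have h2 := h c
    have h3 : 0 ≤ ∑ j ∈ s, c j ^ 2 := Finset.sum_nonneg fun j _ => sq_nonneg _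
    have h4 := mul_nonneg hv h3
    have h5 := mul_nonneg hD.le (sq_nonneg (c j))
    nlinarith

theorem near_of_en {θ : ℝ} (hθ : 0 < θ) : ∃ η : ℝ, 0 < η ∧
    ∀ (Y : Type) [MeasurableSpace Y] (ν : Measure Y) [SFinite ν] (A : Fib ν), A.Four →
      A.en V0 ≤ -(5 / 4) + η → A.Near θ := by
  obtain ⟨γ, hγ, h⟩ := hyd_lower
  refine ⟨min (γ * θ) (min (3 * θ / 8) (3 * θ ^ 2 / 16)), by positivity, ?_⟩
  intro Y _ ν _ A h4 hE
  have e1 : min (γ * θ) (min (3 * θ / 8) (3 * θ ^ 2 / 16)) ≤ γ * θ := min_le_left _ _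
  have e2 : min (γ * θ) (min (3 * θ / 8) (3 * θ ^ 2 / 16)) ≤ 3 * θ / 8 :=
    (min_le_right _ _).trans (min_le_left _ _)
  have e3' : min (γ * θ) (min (3 * θ / 8) (3 * θ ^ 2 / 16)) ≤ 3 * θ ^ 2 / 16 :=
    (min_le_right _ _).trans (min_le_right _ _)
  have hd := A.defect_le fb_V0 h
  rw [h4.1] at hd
  have hG : A.gam (orb 0).f (orb 0).f = A.G 0 0 := rfl
  rw [hG] at hd
  have g2 := h4.G_le 0
  have d0 := mul_nonneg hγ.le A.defect_nonneg
  refine ⟨h4, ?_, by linarith, fun j hj => ?_⟩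
  · exact le_of_mul_le_mul_left (by linarith) hγ
  · have hB := bil_ip.comb A.bil_gam 2 (-1)
    have hc := hB.cs (fun a => by linarith [h4.gam_le a]) (orb 0) (orb j)
    rw [ip_orb, ip_orb, ip_orb, if_neg hj.symm, if_pos rfl, if_pos rfl] at hc
    have hG0 : A.gam (orb 0).f (orb j).f = A.G 0 j := rfl
    have hGj : A.gam (orb j).f (orb j).f = A.G j j := rfl
    rw [hG, hG0, hGj] at hc
    have gj := A.G_nonneg j
    have hh : (2 - A.G 0 0) * (2 - A.G j j) ≤ (2 - A.G 0 0) * 2 :=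
      mul_le_mul_of_nonneg_left (by linarith) (by linarith)
    exact abs_le.2 (abs_le_of_sq_le_sq' (by nlinarith) hθ.le)

theorem hn_sub_orb : ∃ D : ℝ, 0 < D ∧ ∀ (a : S e3) (i : Fin 5) (t : ℝ),
    hn (a - t • orb i) ≤ 2 * hn (rem a) + D * ∑ j, (ip (orb j) a - if j = i then t else 0) ^ 2 := by
  obtain ⟨D, hD, h⟩ := km1_sum orb Finset.univ
  refine ⟨2 * D, by positivity, fun a i t => ?_⟩
  have e : a - t • orb i = rem a + ∑ j, (ip (orb j) a - if j = i then t else 0) • orb j := by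
    have e1 : ∑ j, (if j = i then t else 0) • orb j = t • orb i := by
      rw [Finset.sum_eq_single i (fun j _ hj => by rw [if_neg hj, zero_smul])
        (fun hi => absurd (Finset.mem_univ i) hi), if_pos rfl]
    simp only [sub_smul, Finset.sum_sub_distrib, e1, rem]
    abel
  rw [e]
  have h1 := hn_add_le (rem a) (∑ j, (ip (orb j) a - if j = i then t else 0) • orb j)
  have h2 := h fun j => ip (orb j) a - if j = i then t else 0
  linarith

theorem app_close : ∃ D : ℝ, 0 < D ∧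
    ∀ (Y : Type) [MeasurableSpace Y] (ν : Measure Y) [SFinite ν] (A : Fib ν) (c θ : ℝ), θ ≤ 1 →
      A.Good c θ → hn (A.app (orb 0) - (2 : ℝ) • orb 0) ≤ D * θ ∧
        hn (A.app (orb 1) - A.G 1 1 • orb 1) ≤ D * θ := by
  obtain ⟨D, hD, h⟩ := hn_sub_orb
  refine ⟨4 + 5 * D, by positivity, ?_⟩
  intro Y _ ν _ A c θ hθ hg
  have d0 := A.defect_nonneg
  have d1 := hg.defect
  have θ0 : 0 ≤ θ := d0.trans d1
  have sq : ∀ x : ℝ, |x| ≤ θ → x ^ 2 ≤ θ := fun x hx => by
    have h1 := abs_le.1 hx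
    nlinarith [h1.1, h1.2]
  have hr : ∀ i : Fin 5, 2 * hn (rem (A.app (orb i))) ≤ 4 * θ := fun i => by
    have h1 := A.hn_rem_app (orb i)
    have h2 : A.gam (orb i).f (orb i).f ≤ 2 := hg.four.G_le i
    have h3 := mul_le_mul_of_nonneg_left h2 d0
    linarith
  have hip : ∀ i j : Fin 5, ip (orb j) (A.app (orb i)) = A.G i j := fun i j => by
    rw [A.ip_app, A.G_symm]
    rfl
  have fin : ∀ (i : Fin 5) (t : ℝ), (∀ j, |A.G i j - if j = i then t else 0| ≤ θ) →
      hn (A.app (orb i) - t • orb i) ≤ (4 + 5 * D) * θ := fun i t ht => by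
    have h1 := h (A.app (orb i)) i t
    have h2 : ∑ j, (ip (orb j) (A.app (orb i)) - if j = i then t else 0) ^ 2 ≤ ∑ _j : Fin 5, θ :=
      Finset.sum_le_sum fun j _ => by
        rw [hip]
        exact sq _ (ht j)
    rw [Finset.sum_const, Finset.card_univ, Fintype.card_fin, nsmul_eq_mul] at h2
    have h3 := mul_le_mul_of_nonneg_left h2 hD.le
    have h4 := hr i
    push_cast at h3
    linarith
  refine ⟨fin 0 2 fun j => ?_, fin 1 _ fun j => ?_⟩
  · by_cases hj : j = 0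
    · subst hj
      rw [if_pos rfl]
      exact abs_le.2 ⟨by linarith [hg.g00], by linarith [hg.four.G_le 0]⟩
    · rw [if_neg hj, sub_zero]
      exact hg.g0j j hj
  · by_cases hj : j = 1
    · subst hj
      rw [if_pos rfl, sub_self, abs_zero]
      exact θ0
    · rw [if_neg hj, sub_zero]
      fin_cases j
      · rw [A.G_symm]
        exact hg.g0j 1 (by decide)
      · exact absurd rfl hj
      · exact hg.g1k 0
      · exact hg.g1k 1
      · exact hg.g1k 2

end Vale.Agent.P363
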