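import Vale.Agent.P363.K.Null
import Vale.Agent.P363.K.Mat1

/-!
# P363 K/Phi  (TASK)

`mat_ineq` (pure algebra): `∑ bᵢ bⱼ Gᵢⱼ ≤ 2 b₀² + 8 θ + (2 - c) b₁² + 6 θ + (b₂² + b₃² + b₄²)(G₂₂ + G₃₃ + G₄₄)`, using `2 bₖ bₗ Gₖₗ ≤ bₖ² Gₗₗ + bₗ² Gₖₖ` (from `Gₖₗ² ≤ Gₖₖ Gₗₗ`), `|bᵢ| ≤ 1`,
and `G₂₂ + G₃₃ + G₄₄ ≤ 4 - G₀₀ - G₁₁ ≤ 2 - c + θ`; finally `b₁² + … + b₄² ≤ 1 - b₀²`, `0 ≤ 2 - c`.
`phi_close`: `bⱼ = ip (orb j) φ`, `P = ∑ bⱼ • orb j = φ - rem φ`, `∑ bⱼ² ≤ 1` (`ip_rem`).  `2 = gam φ φ = gam P P + 2 gam P R + gam R R`, `R = rem φ`, `gam R R ≤ θ` (`gam_rem_le`), `gam P P ≤ 2` (`Four.gam_le`), `Bil.abs_le`;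
so `c (1 - b₀²) ≤ 16 θ + 3 √θ`.  `b₀ ≥ 0` (both functions nonnegative), so `(1 - b₀)² ≤ 1 - b₀²`.  `4 hn (rem φ) = hn (rem (app φ)) ≤ 2 θ` (`two_phi`, `hn_congr`, `ip_congr`, `hn_smul`, `hn_rem_app`).  `hn_sub_orb`.
-/

open MeasureTheory Filter Topology Set
open scoped ContDiff

set_option linter.unusedSectionVars false

noncomputable section

namespace Vale.Agent.P363

theorem kph_am {u x y : ℝ} (hx : 0 ≤ x) (hy : 0 ≤ y) (h : u ^ 2 ≤ x * y) : 2 * u ≤ x + y := by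
  by_contra hn
  push Not at hn
  nlinarith [sq_nonneg (x - y)]

theorem kph_cross {p q g θ : ℝ} (hp : p ^ 2 ≤ 1) (hq : q ^ 2 ≤ 1) (hg : |g| ≤ θ) :
    p * q * g ≤ θ := by
  have h1 : |p * q| ≤ 1 := by
    rw [abs_le]
    constructor <;> nlinarith [sq_nonneg (p - q), sq_nonneg (p + q)]
  calc p * q * g ≤ |p * q * g| := le_abs_self _
    _ = |p * q| * |g| := abs_mul _ _
    _ ≤ 1 * θ := mul_le_mul h1 hg (abs_nonneg _) zero_le_one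
    _ = θ := one_mul _

theorem kph_blk {p q g a d : ℝ} (ha : 0 ≤ a) (hd : 0 ≤ d) (h : g ^ 2 ≤ a * d) :
    2 * (p * q * g) ≤ p ^ 2 * d + q ^ 2 * a := by
  refine kph_am (by positivity) (by positivity) ?_
  have := mul_le_mul_of_nonneg_left h (sq_nonneg (p * q))
  nlinarith

theorem mat_ineq {G : Fin 5 → Fin 5 → ℝ} {b : Fin 5 → ℝ} {c θ : ℝ} (hθ : 0 ≤ θ)
    (hs : ∀ i j, G i j = G j i) (h0 : ∀ j, 0 ≤ G j j) (h2 : G 0 0 ≤ 2)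
    (hcs : ∀ i j, G i j ^ 2 ≤ G i i * G j j) (htr : ∑ j, G j j ≤ 4) (h00 : 2 - θ ≤ G 0 0)
    (h0j : ∀ j, j ≠ 0 → |G 0 j| ≤ θ) (hlo : c ≤ G 1 1) (hhi : G 1 1 ≤ 2 - c)
    (h1k : ∀ k : Fin 3, |G 1 (k.addNat 2)| ≤ θ) (hb : ∑ j, b j ^ 2 ≤ 1) :
    ∑ i, ∑ j, b i * b j * G i j ≤ 2 - c * (1 - b 0 ^ 2) + 15 * θ := by
  have hb1 : ∀ j, b j ^ 2 ≤ 1 := fun j =>
    (Finset.single_le_sum (f := fun j => b j ^ 2) (fun _ _ => sq_nonneg _)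
      (Finset.mem_univ j)).trans hb
  have c1 := kph_cross (hb1 0) (hb1 1) (h0j 1 (by decide))
  have c2 := kph_cross (hb1 0) (hb1 2) (h0j 2 (by decide))
  have c3 := kph_cross (hb1 0) (hb1 3) (h0j 3 (by decide))
  have c4 := kph_cross (hb1 0) (hb1 4) (h0j 4 (by decide))
  have d2 : b 1 * b 2 * G 1 2 ≤ θ := kph_cross (hb1 1) (hb1 2) (h1k 0)
  have d3 : b 1 * b 3 * G 1 3 ≤ θ := kph_cross (hb1 1) (hb1 3) (h1k 1)
  have d4 : b 1 * b 4 * G 1 4 ≤ θ := kph_cross (hb1 1) (hb1 4) (h1k 2)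
  have e1 := kph_blk (p := b 2) (q := b 3) (h0 2) (h0 3) (hcs 2 3)
  have e2 := kph_blk (p := b 2) (q := b 4) (h0 2) (h0 4) (hcs 2 4)
  have e3' := kph_blk (p := b 3) (q := b 4) (h0 3) (h0 4) (hcs 3 4)
  simp only [Fin.sum_univ_five] at hb htr ⊢
  rw [hs 1 0, hs 2 0, hs 3 0, hs 4 0, hs 2 1, hs 3 1, hs 4 1, hs 3 2, hs 4 2, hs 4 3]
  have f0 : b 0 ^ 2 * G 0 0 ≤ b 0 ^ 2 * 2 := mul_le_mul_of_nonneg_left h2 (sq_nonneg _)
  have f1 : b 1 ^ 2 * G 1 1 ≤ b 1 ^ 2 * (2 - c) := mul_le_mul_of_nonneg_left hhi (sq_nonneg _)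
  have f2 : (b 2 ^ 2 + b 3 ^ 2 + b 4 ^ 2) * (G 2 2 + G 3 3 + G 4 4) ≤
      (b 2 ^ 2 + b 3 ^ 2 + b 4 ^ 2) * (2 - c + θ) :=
    mul_le_mul_of_nonneg_left (by linarith) (by positivity)
  have f3 : (b 1 ^ 2 + b 2 ^ 2 + b 3 ^ 2 + b 4 ^ 2) * (2 - c) ≤ (1 - b 0 ^ 2) * (2 - c) :=
    mul_le_mul_of_nonneg_right (by linarith) (by linarith [h0 1])
  have f4 : (b 2 ^ 2 + b 3 ^ 2 + b 4 ^ 2) * θ ≤ 1 * θ :=
    mul_le_mul_of_nonneg_right (by nlinarith [sq_nonneg (b 0), sq_nonneg (b 1)]) hθ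
  linarith

theorem phi_close {c θ' : ℝ} (hc : 0 < c) (hθ : 0 < θ') : ∃ θ : ℝ, 0 < θ ∧
    ∀ (Y : Type) [MeasurableSpace Y] (ν : Measure Y) [SFinite ν] (A : Fib ν) (φ : S e3),
      A.Good c θ → (∀ᵐ x, 0 ≤ φ.f x) → ip φ φ = 1 → A.gam φ.f φ.f = 2 →
      hn (φ - orb 0) ≤ θ' := by
  obtain ⟨D, hD, hsub⟩ := hn_sub_orb
  obtain ⟨s, hs0, hs1, hs2⟩ : ∃ s : ℝ, 0 < s ∧ s ≤ 1 ∧ s * (1 + 50 * D / c) ≤ θ' := by
    have hp : 0 < 1 + 50 * D / c := by positivity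
    refine ⟨min 1 (θ' / (1 + 50 * D / c)), lt_min one_pos (by positivity), min_le_left _ _, ?_⟩
    exact (le_div_iff₀ hp).1 (min_le_right _ _)
  refine ⟨s ^ 2, by positivity, fun Y _ ν _ A φ hA h0 h1 h2 => ?_⟩
  have hB := A.bil_gam
  have hB0 : ∀ a : S e3, 0 ≤ A.gam a.f a.f := fun a => A.gam_nonneg a.f
  have hs3 : s ^ 2 ≤ s := by nlinarith
  have hb : ∑ j, ip (orb j) φ ^ 2 ≤ 1 := by
    have := ip_rem φ
    linarith [ip_nonneg (rem φ)]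
  have hm := mat_ineq (G := A.G) (b := fun j => ip (orb j) φ) (c := c) (θ := s ^ 2) (sq_nonneg s)
    A.G_symm A.G_nonneg (hA.four.G_le 0) A.G_sq_le (A.trace_le.1.trans_eq hA.four.1) hA.g00 hA.g0j
    hA.lo hA.hi hA.g1k hb
  have hP : A.gam (∑ j, ip (orb j) φ • orb j).f (∑ j, ip (orb j) φ • orb j).f =
      ∑ i, ∑ j, ip (orb i) φ * ip (orb j) φ * A.G i j := by
    rw [hB.sum_left]
    refine Finset.sum_congr rfl fun i _ => ?_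
    rw [hB.smul, hB.sum_right, Finset.mul_sum]
    refine Finset.sum_congr rfl fun j _ => ?_
    rw [hB.smul_right, mul_assoc]
    rfl
  have hsum : φ = (∑ j, ip (orb j) φ • orb j) + rem φ := by simp [rem]
  have hR : A.gam (rem φ).f (rem φ).f ≤ s ^ 2 := by
    have := A.gam_rem_le φ
    rw [h1, mul_one] at this
    exact this.trans hA.defect
  have hb0 : 0 ≤ ip (orb 0) φ := by
    refine integral_nonneg_of_ae ?_
    filter_upwards [h0] with x hx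
    rw [orb_f, raw_zero]
    exact mul_nonneg (mul_nonneg (nrm_pos 0).le (Real.exp_pos _).le) hx
  have hb01 : ip (orb 0) φ ^ 2 ≤ 1 :=
    (Finset.single_le_sum (f := fun j => ip (orb j) φ ^ 2) (fun _ _ => sq_nonneg _)
      (Finset.mem_univ 0)).trans hb
  have hq : c * (1 - ip (orb 0) φ ^ 2) ≤ 25 * s := by
    have h3 := hB.add_sq (∑ j, ip (orb j) φ • orb j) (rem φ)
    have h4 := hB.cs hB0 (∑ j, ip (orb j) φ • orb j) (rem φ)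
    rw [← hsum, h2] at h3
    have h5 : 0 ≤ c * (1 - ip (orb 0) φ ^ 2) := mul_nonneg hc.le (by linarith)
    rw [← hP] at hm
    have h6 := hB0 (∑ j, ip (orb j) φ • orb j)
    have h7 := hB0 (rem φ)
    generalize A.gam (∑ j, ip (orb j) φ • orb j).f (∑ j, ip (orb j) φ • orb j).f = p at *
    generalize A.gam (∑ j, ip (orb j) φ • orb j).f (rem φ).f = q at *
    generalize A.gam (rem φ).f (rem φ).f = r at *
    have h8 : p * r ≤ 17 * s ^ 2 := mul_le_mul (by nlinarith) hR h7 (by norm_num)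
    have h9 : 2 * q ≤ 9 * s := by
      by_contra hn
      push Not at hn
      nlinarith
    linarith
  have hrem : hn (rem φ) ≤ s ^ 2 / 2 := by
    have h3 := A.hn_rem_app φ
    have h4 : (A.app φ).f =ᵐ[volume] ((2 : ℝ) • φ).f := Fib.two_phi hA.four h1 h2
    have h5 : ∀ j, ip (orb j) (A.app φ) = 2 * ip (orb j) φ := fun j => by
      rw [bil_ip.symm, ip_congr h4, bil_ip.smul, bil_ip.symm]
    have h6 : (rem (A.app φ)).f =ᵐ[volume] ((2 : ℝ) • rem φ).f := by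
      filter_upwards [h4] with x hx
      rw [S.smul_f, fib3_rem_f, fib3_rem_f, hx, S.smul_f, mul_sub, Finset.mul_sum]
      simp only [h5, mul_assoc]
    rw [hn_congr h6, hn_smul, h2] at h3
    linarith [hA.defect]
  have h7 := hsub φ 0 1
  rw [one_smul] at h7
  have h8 : ∑ j : Fin 5, (ip (orb j) φ - if j = 0 then 1 else 0) ^ 2 ≤
      2 * (1 - ip (orb 0) φ ^ 2) := by
    simp only [Fin.sum_univ_five] at hb ⊢
    simp only [↓reduceIte, Fin.reduceEq, sub_zero]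
    have : ip (orb 0) φ ≤ 1 := by nlinarith
    nlinarith
  have h9 : 1 - ip (orb 0) φ ^ 2 ≤ 25 * s / c := by
    rw [le_div_iff₀ hc]
    linarith
  have h10 : D * ∑ j : Fin 5, (ip (orb j) φ - if j = 0 then 1 else 0) ^ 2 ≤ D * (2 * (25 * s / c)) :=
    mul_le_mul_of_nonneg_left (by linarith) hD.le
  have h11 : s * (1 + 50 * D / c) = s + D * (2 * (25 * s / c)) := by ring
  linarith

end Vale.Agent.P363
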