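import Vale.Agent.P363.K.Null
import Vale.Agent.P363.K.Mat1

/-!
# P363 K/Psi  (TASK)

`ψ = app (orb 1) - t • φ`, `t = ip φ (app (orb 1))`.  Eigenvalue equation: `app_eq` with `δ = e₁ - e₀` and `Eig v e₀ φ`.  `t = ip (φ - orb 0) ψ₂ + G 0 1` (`ip_app`), `ip ψ₂ ψ₂ ≤ hn ψ₂ ≤ 2 D θ + 8 hn (orb 1)`, so
`t² ≤ D' θ` (`abs_ip_le`); `hn φ ≤ 2 θ + 2 hn (orb 0)`; `hn (ψ - G11 • orb 1) ≤ 2 hn (ψ₂ - G11 • orb 1) + 2 t² hn φ` (`app_close`).  Pointwise: `ψ₂² ≤ 2 n` (`app_sq_le`, `Four.G_le`), `φ² ≤ n` (`phi_sq_le`), `|t| ≤ 1` for small `θ`.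
-/

open MeasureTheory Filter Topology Set
open scoped ContDiff

set_option linter.unusedSectionVars false

noncomputable section

namespace Vale.Agent.P363

theorem kps_pt {p q t n : ℝ} (hn : 0 ≤ n) (hp : p ^ 2 ≤ n * 2) (hq : q ^ 2 ≤ n) (ht : t ^ 2 ≤ 1) :
    |p - t * q| ≤ 3 * √n := by
  have h1 : |q| ≤ √n := Real.abs_le_sqrt hq
  have h0 := Real.sqrt_nonneg n
  have h2 : |p| ≤ 2 * √n := abs_le_of_sq_le_sq (by rw [mul_pow, Real.sq_sqrt hn]; linarith)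
    (by positivity)
  have h3 : |t| ≤ 1 := abs_le_of_sq_le_sq (by linarith) zero_le_one
  have h4 : |t * q| ≤ √n := by
    rw [abs_mul]
    exact (mul_le_of_le_one_left (abs_nonneg _) h3).trans h1
  linarith [abs_sub p (t * q)]

theorem psi_exists {θ' : ℝ} (hθ : 0 < θ') : ∃ θ : ℝ, 0 < θ ∧
    ∀ (Y : Type) [MeasurableSpace Y] (ν : Measure Y) [SFinite ν] (A : Fib ν) (c : ℝ) (v : E3 → ℝ)
      (e₀ e₁ : ℝ) (φ : S e3), A.Good c θ → FB e3 v → ip φ φ = 1 → A.gam φ.f φ.f = 2 → Eig v e₀ φ →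
      (∀ᵐ y ∂ν, ∀ b : S e3, qf v (A.sl y) b =
        e₁ * ip (A.sl y) b - (e₁ - e₀) * (ip φ (A.sl y) * ip φ b)) →
      hn (φ - orb 0) ≤ θ → ∃ ψ : S e3, Eig v e₁ ψ ∧ (∀ᵐ x, |ψ.f x| ≤ 3 * √(A.n x)) ∧
        hn (ψ - A.G 1 1 • orb 1) ≤ θ' := by
  obtain ⟨D, hD, hc⟩ := app_close
  have H0 := hn_nonneg (orb 0)
  have H1 := hn_nonneg (orb 1)
  obtain ⟨M, hM⟩ : ∃ M : ℝ, M = 2 * (2 * D + 8 * hn (orb 1)) + 2 := ⟨_, rfl⟩
  have M0 : 0 < M := by rw [hM]; positivity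
  obtain ⟨L, hL⟩ : ∃ L : ℝ, L = 2 * D + 2 * (M * (2 + 2 * hn (orb 0))) := ⟨_, rfl⟩
  have L0 : 0 < L := by rw [hL]; positivity
  refine ⟨min 1 (min (1 / M) (θ' / L)), by positivity, ?_⟩
  intro Y _ ν _ A c v e₀ e₁ φ hA hv h1 h2 he hsl hφ
  have a1 : min 1 (min (1 / M) (θ' / L)) ≤ 1 := min_le_left _ _
  have a2 : min 1 (min (1 / M) (θ' / L)) * M ≤ 1 :=
    (le_div_iff₀ M0).1 ((min_le_right _ _).trans (min_le_left _ _))
  have a3 : min 1 (min (1 / M) (θ' / L)) * L ≤ θ' :=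
    (le_div_iff₀ L0).1 ((min_le_right _ _).trans (min_le_right _ _))
  have a0 : 0 < min 1 (min (1 / M) (θ' / L)) := by positivity
  generalize min 1 (min (1 / M) (θ' / L)) = θ at *
  have hcl := (hc Y ν A c θ a1 hA).2
  have g1 := A.G_nonneg 1
  have g2 := hA.four.G_le 1
  have b1 : hn (A.app (orb 1)) ≤ 2 * D + 8 * hn (orb 1) := by
    have h := hn_add_le (A.app (orb 1) - A.G 1 1 • orb 1) (A.G 1 1 • orb 1)
    rw [sub_add_cancel, hn_smul] at h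
    have h' : A.G 1 1 ^ 2 * hn (orb 1) ≤ 4 * hn (orb 1) :=
      mul_le_mul_of_nonneg_right (by nlinarith) H1
    nlinarith
  have b2 : ip (φ - orb 0) (A.app (orb 1)) ^ 2 ≤ θ * (2 * D + 8 * hn (orb 1)) :=
    (bil_ip.cs ip_nonneg _ _).trans (mul_le_mul ((ip_le_hn _).trans hφ)
      ((ip_le_hn _).trans b1) (ip_nonneg _) a0.le)
  have b3 : A.G 0 1 ^ 2 ≤ θ := by
    have h := hA.g0j 1 (by decide)
    have h' := sq_abs (A.G 0 1)
    nlinarith [abs_nonneg (A.G 0 1)]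
  have b4 : ip φ (A.app (orb 1)) = ip (φ - orb 0) (A.app (orb 1)) + A.G 0 1 := by
    rw [bil_ip.sub_left, A.ip_app (orb 0), Fib.G, sub_add_cancel]
  have b5 : ip φ (A.app (orb 1)) ^ 2 ≤ θ * M := by
    rw [b4, hM]
    nlinarith [sq_nonneg (ip (φ - orb 0) (A.app (orb 1)) - A.G 0 1)]
  have b6 : hn φ ≤ 2 + 2 * hn (orb 0) := by
    have h := hn_add_le (φ - orb 0) (orb 0)
    rw [sub_add_cancel] at h
    linarith
  refine ⟨A.app (orb 1) - ip φ (A.app (orb 1)) • φ, fun b => ?_, ?_, ?_⟩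
  · rw [hv.bil_qf.sub_left, hv.bil_qf.smul, Fib.app_eq hv hsl, he b, bil_ip.sub_left, bil_ip.smul]
    ring
  · filter_upwards [A.app_sq_le (orb 1), Fib.phi_sq_le hA.four h1 h2] with x c1 c2
    rw [S.sub_f, S.smul_f]
    exact kps_pt (A.n_nonneg x) (c1.trans (mul_le_mul_of_nonneg_left g2 (A.n_nonneg x))) c2
      (b5.trans a2)
  · have h := hn_sub_le (A.app (orb 1) - A.G 1 1 • orb 1) (ip φ (A.app (orb 1)) • φ)
    rw [sub_right_comm, hn_smul] at h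
    have h' : ip φ (A.app (orb 1)) ^ 2 * hn φ ≤ θ * M * (2 + 2 * hn (orb 0)) :=
      mul_le_mul b5 b6 (hn_nonneg _) (by positivity)
    rw [hL] at a3
    nlinarith

end Vale.Agent.P363
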