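import Vale.Agent.P363.K.Null

/-!
# P363 K/Sub  (TASK)

The square root of the density is a subsolution.  `IsSqrt.sub` with `U = v - E` (`FB.sub`, `fb_const`, `qf_sub_const`).  For `μ` use `mul_sl`: `b y` with `(b y).f = μ F (·, y)`, and for a.e. `y`
`qf U (sl y) (b y) = -δ ip φ (sl y) ip φ (b y) = -δ red φ y * red (φ μ) y` (`ip_sl`; `φ μ ∈ L²` as `μ` is bounded).  `ip_pr` with `Ξ = red φ`: `∫ red (φ μ) * red φ = ∫ φ μ (app φ) = 2 ∫ μ φ² ≥ 0` (`two_phi`).
-/

open MeasureTheory Filter Topology Set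
open scoped ContDiff

set_option linter.unusedSectionVars false

noncomputable section

namespace Vale.Agent.P363

variable {Y : Type} [MeasurableSpace Y] {ν : Measure Y} [SFinite ν]

namespace Fib

theorem sqrt_sub {A : Fib ν} (h4 : A.Four) {u : S e3} (hu : A.IsSqrt u) {v : E3 → ℝ} (hv : FB e3 v)
    {E δ : ℝ} (hδ : 0 ≤ δ) {φ : S e3} (hφ : ip φ φ = 1) (h2 : A.gam φ.f φ.f = 2)
    (h : ∀ᵐ y ∂ν, ∀ b : S e3, qf v (A.sl y) b = E * ip (A.sl y) b - δ * (ip φ (A.sl y) * ip φ b))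
    (η : S e3) (hη : ∀ᵐ x, 0 ≤ η.f x) : qf v u η ≤ E * ip u η := by
  have hU : FB e3 fun x => v x - E := hv.sub (fb_const E)
  have key := hu.sub hU (fun μ ⟨C, hC⟩ hi => ?_) η hη
  · rw [qf_sub_const hv] at key
    linarith
  have hC' : ∀ᵐ x, |μ.f x| ≤ C := hC.mono fun x hx => by
    rw [abs_of_nonneg hx.1]
    exact hx.2
  obtain ⟨b, hb, -, e⟩ := A.mul_sl μ hC' hi hU
  have hm : MemLp (fun x => μ.f x * φ.f x) 2 volume := ch_bmul μ.mem.1 hC' φ.mem
  have e1 : ∫ y, qf (fun x => v x - E) (A.sl y) (b y) ∂ν =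
      ∫ y, -δ * (A.red (fun x => μ.f x * φ.f x) y * A.red φ.f y) ∂ν := by
    refine integral_congr_ae ?_
    filter_upwards [h, hb, A.ip_sl φ] with y h1 h2 h3
    have e2 : ip φ (b y) = A.red (fun x => μ.f x * φ.f x) y := by
      simp only [ip, red, h2]
      exact integral_congr_ae (Eventually.of_forall fun x => by ring)
    rw [qf_sub_const hv, h1, h3, e2]
    ring
  have e3 : 0 ≤ ∫ x, μ.f x * φ.f x * (A.app φ).f x := by
    refine integral_nonneg_of_ae ?_
    filter_upwards [two_phi h4 hφ h2, hC] with x h1 h2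
    rw [h1]
    have := mul_nonneg h2.1 (mul_self_nonneg (φ.f x))
    change 0 ≤ μ.f x * φ.f x * (2 * φ.f x)
    linarith
  rw [← e, e1, integral_const_mul, ← A.ip_pr (A.red_mem φ.mem) hm]
  exact mul_nonpos_of_nonpos_of_nonneg (by linarith) e3

end Fib

end Vale.Agent.P363
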