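import Vale.Agent.P363.K.Use2

/-!
# P363 K/Use1  (TASK)

`de_giorgi` with `A = u`, `B = -φ`, radii `3, 7/2, 11/2, 6`, `M = C² + 2κ`, `k₀ = -2κ`, where `2 κ C ≤ m₀ = nrm 0 * exp (-6) ≤ orb 0` on the shell.  Test inequality: `wr η u (-φ) = wr η φ u` (`wr_neg`, `wr_swap`), `wr_eq`:
`= qf v u (φ η) - qf v φ (u η) ≤ (e₁ - e₀) ∫ u φ η ≤ C² ∫ η` (`η` is integrable: bounded and supported in the shell, `volume_sh_ne_top`).  On the shell `-φ/u + 2κ ≤ (orb 0 - φ)/u`, so
`max (..) 0 ^ 2 ≤ (φ - orb 0)² / c²`; integrate (`setIntegral_mono_on_ae`, `setIntegral_le_integral`, `ip_self`, `ip_le_hn`).  Conclusion `φ ≥ κ u ≥ κ c`.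
-/

open MeasureTheory Filter Topology Set
open scoped ContDiff

set_option linter.unusedSectionVars false

noncomputable section

namespace Vale.Agent.P363

theorem use1 {c C : ℝ} (hc : 0 < c) (hC : 0 < C) : ∃ θ c₁ : ℝ, 0 < θ ∧ 0 < c₁ ∧
    ∀ (v : E3 → ℝ) (e₀ e₁ : ℝ) (u φ : S e3), FB e3 v → 0 ≤ e₁ - e₀ → e₁ - e₀ ≤ 1 →
      (∀ᵐ x, 0 ≤ u.f x ∧ u.f x ≤ C) → (∀ᵐ x, 0 ≤ φ.f x ∧ φ.f x ≤ C) →
      (∀ᵐ x, x ∈ sh 3 6 → c ≤ u.f x) → Eig v e₀ φ →
      (∀ η : S e3, (∀ᵐ x, 0 ≤ η.f x) → qf v u η ≤ e₁ * ip u η) → hn (φ - orb 0) ≤ θ →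
      ∀ᵐ x, x ∈ sh (7 / 2) (11 / 2) → c₁ ≤ φ.f x := by
  set m : ℝ := nrm 0 * Real.exp (-6) with hm
  have hm0 : 0 < m := mul_pos (nrm_pos 0) (by positivity)
  set κ : ℝ := m / (2 * C) with hκ
  have hκ0 : 0 < κ := by positivity
  have hκC : 2 * κ * C = m := by rw [hκ]; field_simp
  obtain ⟨ε, hε, hD⟩ := de_giorgi (c := c) (C := C) (M := C ^ 2 + 2 * κ) (k := κ) (r1 := 3)
    (r2 := 7 / 2) (r3 := 11 / 2) (r4 := 6) hc hκ0 (by norm_num) (by norm_num) (by norm_num)
    (by norm_num)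
  refine ⟨ε * c ^ 2, κ * c, by positivity, by positivity, ?_⟩
  intro v e₀ e₁ u φ hv d0 d1 hu hφ hl h0 hs hθ
  have hφ' : ∀ᵐ x, |φ.f x| ≤ C := hφ.mono fun x hx => by rw [abs_of_nonneg hx.1]; exact hx.2
  have hu' : ∀ᵐ x, |u.f x| ≤ C := hu.mono fun x hx => by rw [abs_of_nonneg hx.1]; exact hx.2
  have key := hD u (-φ) (-(2 * κ))
    (by
      filter_upwards [hu, hφ', hl] with x a1 a2 a3 b1 b2
      exact ⟨a3 ⟨b1, b2⟩, a1.2, by rwa [S.neg_f, abs_neg]⟩)
    (by rw [abs_neg, abs_of_pos (by positivity)]; nlinarith [sq_nonneg C])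
    (by
      rintro η e0 ⟨L, hL⟩ hz
      obtain ⟨p, q, hp, hq, he⟩ := wr_eq hv η φ u (C := max L C) (ku2_abs e0 hL)
        (hφ'.mono fun x hx => hx.trans (le_max_right _ _))
        (hu'.mono fun x hx => hx.trans (le_max_right _ _))
      change wr η u (-φ) ≤ _
      rw [wr_neg, ← wr_swap, he, h0 q]
      have a1 := hs p (hφ.mono fun x hx => by rw [hp]; exact mul_nonneg hx.1 (e0 x))
      have a2 : ip u p = ∫ x, η.f x * (φ.f x * u.f x) := by
        unfold ip
        refine integral_congr_ae (Eventually.of_forall fun x => ?_)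
        simp only [hp]
        ring
      have a3 : ip φ q = ∫ x, η.f x * (φ.f x * u.f x) := by
        unfold ip
        refine integral_congr_ae (Eventually.of_forall fun x => ?_)
        simp only [hq]
        ring
      have a4 := ku2_prod e0 hL hz hφ' hu' d0 d1 (M := C ^ 2 + 2 * κ) (by linarith)
      rw [a2] at a1
      rw [a3]
      linarith)
    (by
      have := ku2_small (F := fun x => (-φ).f x / u.f x - -(2 * κ)) (φ - orb 0) hc hθ
        (r := 3) (s := 6) (by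
          filter_upwards [hu, hl] with x a1 a2 b1 b2
          have a3 := a2 ⟨b1, b2⟩
          have a4 : 0 < u.f x := hc.trans_le a3
          have a5 : m ≤ (orb 0).f x := by
            rw [orb_f, raw_zero, hm]
            exact mul_le_mul_of_nonneg_left (Real.exp_le_exp.2 (by linarith)) (nrm_pos 0).le
          have a6 : 2 * κ * u.f x ≤ 2 * κ * C := mul_le_mul_of_nonneg_left a1.2 (by positivity)
          calc (-φ).f x / u.f x - -(2 * κ) = (-φ.f x + 2 * κ * u.f x) / u.f x := by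
                rw [S.neg_f]
                field_simp
                ring
            _ ≤ |(φ - orb 0).f x| / u.f x := by
                refine div_le_div_of_nonneg_right ?_ a4.le
                refine le_trans ?_ (neg_le_abs _)
                rw [S.sub_f]
                linarith
            _ ≤ |(φ - orb 0).f x| / c := div_le_div_of_nonneg_left (abs_nonneg _) hc a3)
      rwa [mul_div_assoc, div_self (by positivity), mul_one] at this)
  filter_upwards [key, hl] with x a1 a2 hx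
  have a3 := a2 (sh_mono (by norm_num) (by norm_num) hx)
  have a4 : 0 < u.f x := hc.trans_le a3
  have a5 := a1 hx.1 hx.2
  rw [div_le_iff₀ a4, S.neg_f] at a5
  nlinarith

end Vale.Agent.P363
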