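import Vale.Agent.P363.A.Chain
import Vale.Agent.P363.A.Cut

/-!
# P363 K/DGc  (TASK): shell cut-offs and the numerical iteration

`exists_shellCut`: `θ x = (1 - β₁ ‖x‖) * β₂ ‖x‖` with `β₁` from `exists_cut` for `(r, r + d)` and `β₂` for `(s - d, s)`; `fderiv_mul`; off the closed shell
(an open set) `θ` vanishes near the point, inside the open shell `r + d < ‖x‖ < s - d` it is `1` near the point (`Filter.EventuallyEq.fderiv_eq`).
`dg_iter`: choose `ε` with `D ε ^ (2/3) ≤ 1 / 64` (e.g. `ε = (1 / (64 D)) ^ (3/2)`); induction `Y j ≤ ε / 64 ^ j`, using `(64 ^ j) ^ (2/3) = 16 ^ j`.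
Helper lemma names start with `dgc_`.
-/

open MeasureTheory Filter Topology Set
open scoped ContDiff

set_option linter.unusedSectionVars false

noncomputable section

namespace Vale.Agent.P363

/-- The closed shell. -/
def shell (r s : ℝ) : Set E3 := {x | r ≤ ‖x‖ ∧ ‖x‖ ≤ s}

theorem isCompact_shell (r s : ℝ) : IsCompact (shell r s) := by
  refine (isCompact_closedBall (0 : E3) s).of_isClosed_subset ?_ fun x hx =>
    mem_closedBall_zero_iff.2 hx.2
  exact (isClosed_le continuous_const continuous_norm).inter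
    (isClosed_le continuous_norm continuous_const)

theorem exists_shellCut : ∃ K : ℝ, 0 < K ∧ ∀ r s d : ℝ, 0 < r → 0 < d → r + d ≤ s - d →
    ∃ θ : E3 → ℝ, ContDiff ℝ ∞ θ ∧ HasCompactSupport θ ∧ tsupport θ ⊆ shell r s ∧
      (∀ x, 0 ≤ θ x ∧ θ x ≤ 1) ∧ (∀ x ∈ shell (r + d) (s - d), θ x = 1) ∧
      (∀ x, x ∉ shell r s → θ x = 0 ∧ fderiv ℝ θ x = 0) ∧
      (∀ x : E3, r + d < ‖x‖ → ‖x‖ < s - d → fderiv ℝ θ x = 0) ∧
      ∀ x, ‖fderiv ℝ θ x‖ ≤ K / d := by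
  obtain ⟨K, hK, h⟩ := exists_cut
  refine ⟨2 * K, by positivity, fun r s d hr hd hrs => ?_⟩
  obtain ⟨β₁, -, -, a1, a2, a3, -, -, -, a4, -, a5, -⟩ := h r (r + d) hr (by linarith)
  obtain ⟨β₂, -, -, b1, b2, b3, -, -, -, b4, -, b5, -⟩ := h (s - d) s (by linarith) (by linarith)
  rw [add_sub_cancel_left] at a5
  rw [sub_sub_cancel] at b5
  have z : ∀ x, x ∉ shell r s → (1 - β₁ ‖x‖) * β₂ ‖x‖ = 0 := by
    intro x hx
    by_cases h1 : r ≤ ‖x‖
    · rw [b3 _ (not_le.1 fun h2 => hx ⟨h1, h2⟩).le, mul_zero]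
    · rw [a2 _ (not_le.1 h1).le, sub_self, zero_mul]
  have o : ∀ x ∈ shell (r + d) (s - d), (1 - β₁ ‖x‖) * β₂ ‖x‖ = 1 := fun x hx => by
    rw [a3 _ hx.1, b2 _ hx.2, sub_zero, mul_one]
  have cl := (isCompact_shell r s).isClosed
  refine ⟨fun x => (1 - β₁ ‖x‖) * β₂ ‖x‖, (contDiff_const.sub a4).mul b4,
    HasCompactSupport.intro (isCompact_shell r s) z,
    closure_minimal (fun x hx => by_contra fun h1 => hx (z x h1)) cl, fun x => ?_, o,
    fun x hx => ⟨z x hx, ?_⟩, fun x h1 h2 => ?_, fun x => ?_⟩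
  · exact ⟨mul_nonneg (sub_nonneg.2 (a1 _).2) (b1 _).1,
      mul_le_one₀ (by linarith [(a1 ‖x‖).1]) (b1 _).1 (b1 _).2⟩
  · have e : (fun x : E3 => (1 - β₁ ‖x‖) * β₂ ‖x‖) =ᶠ[𝓝 x] fun _ => 0 := by
      filter_upwards [cl.isOpen_compl.mem_nhds hx] with y hy using z y hy
    rw [e.fderiv_eq, fderiv_fun_const, Pi.zero_apply]
  · have e : (fun x : E3 => (1 - β₁ ‖x‖) * β₂ ‖x‖) =ᶠ[𝓝 x] fun _ => 1 := by
      filter_upwards [(isOpen_lt continuous_const continuous_norm).mem_nhds h1,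
        (isOpen_lt continuous_norm continuous_const).mem_nhds h2] with y k1 k2 using
        o y ⟨le_of_lt k1, le_of_lt k2⟩
    rw [e.fderiv_eq, fderiv_fun_const, Pi.zero_apply]
  · have d1 := (a4.differentiable (by simp) x).hasFDerivAt
    have d2 := (b4.differentiable (by simp) x).hasFDerivAt
    rw [((d1.const_sub 1).fun_mul d2).fderiv]
    refine (norm_add_le _ _).trans ?_
    rw [norm_smul, norm_smul, norm_neg, Real.norm_of_nonneg (sub_nonneg.2 (a1 _).2),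
      Real.norm_of_nonneg (b1 _).1, two_mul, add_div]
    exact add_le_add ((mul_le_of_le_one_left (norm_nonneg _) (by linarith [(a1 ‖x‖).1])).trans (b5 x))
      ((mul_le_of_le_one_left (norm_nonneg _) (b1 _).2).trans (a5 x))

theorem dg_iter {D : ℝ} (hD : 0 < D) : ∃ ε : ℝ, 0 < ε ∧ ∀ Y : ℕ → ℝ, (∀ j, 0 ≤ Y j) → Y 0 ≤ ε →
    (∀ j, Y (j + 1) ≤ D * 16 ^ j * Y j ^ (2 / 3 : ℝ) * Y j) → Tendsto Y atTop (𝓝 0) := by
  have h0 : 0 < 1 / (64 * D) := by positivity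
  refine ⟨(1 / (64 * D)) ^ (3 / 2 : ℝ), by positivity, fun Y hY h1 h2 => ?_⟩
  have e1 : ((1 / (64 * D)) ^ (3 / 2 : ℝ)) ^ (2 / 3 : ℝ) = 1 / (64 * D) := by
    rw [← Real.rpow_mul h0.le]
    norm_num
  generalize (1 / (64 * D)) ^ (3 / 2 : ℝ) = ε at h1 e1
  have ε0 : 0 ≤ ε := (hY 0).trans h1
  have e2 : ∀ j : ℕ, ((64 : ℝ) ^ j) ^ (2 / 3 : ℝ) = 16 ^ j := fun j => by
    rw [show (64 : ℝ) ^ j = (4 ^ j) ^ 3 by rw [← pow_mul, mul_comm, pow_mul]; norm_num,
      ← Real.rpow_natCast _ 3, ← Real.rpow_mul (by positivity),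
      show ((3 : ℕ) : ℝ) * (2 / 3) = ((2 : ℕ) : ℝ) by norm_num, Real.rpow_natCast, ← pow_mul,
      mul_comm, pow_mul]
    norm_num
  have h3 : ∀ j, Y j ≤ ε * (1 / 64) ^ j := by
    intro j
    induction j with
    | zero => simpa using h1
    | succ j ih =>
      have k1 : Y j ^ (2 / 3 : ℝ) ≤ 1 / (64 * D) / 16 ^ j := by
        refine (Real.rpow_le_rpow (hY j) ih (by norm_num)).trans_eq ?_
        rw [one_div_pow, mul_one_div, Real.div_rpow ε0 (by positivity), e1, e2]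
      refine (h2 j).trans ((mul_le_mul (mul_le_mul_of_nonneg_left k1 (by positivity)) ih (hY j)
        (by positivity)).trans_eq ?_)
      rw [pow_succ]
      field_simp
  refine squeeze_zero hY h3 ?_
  simpa using (tendsto_pow_atTop_nhds_zero_of_lt_one (r := (1 / 64 : ℝ)) (by norm_num)
    (by norm_num)).const_mul ε

end Vale.Agent.P363
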