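import Vale.Agent.P363.K.DGb
import Vale.Agent.P363.K.DGc

/-!
# P363 K/DG: the De Giorgi lemma (helper10)
-/

open MeasureTheory Filter Topology Set
open scoped ContDiff

set_option linter.unusedSectionVars false

noncomputable section

namespace Vale.Agent.P363

theorem dg_int (w : S e3) {κ : ℝ} (hκ : 0 ≤ κ) :
    Integrable fun x => max (w.f x - κ) 0 ^ 2 := (S.of (posPart w hκ)).int_sq

theorem dg_num {Cs Y P Q K d k : ℝ} (hCs : 0 < Cs) (hY : 0 ≤ Y) (hP : 0 ≤ P) (hQ : 0 ≤ Q)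
    (hk : 0 < k) (hd : 0 < d) (j : ℕ) :
    Cs * (Y / (k / 2 ^ (j + 1)) ^ 2) ^ (2 / 3 : ℝ) *
      ((P / (k / 2 ^ (j + 1)) + Q * (K / (d / 2 ^ (j + 1))) ^ 2) * Y) ≤
      Cs * (4 / k ^ 2) ^ (2 / 3 : ℝ) * (2 * P / k + Q * (4 * K ^ 2 / d ^ 2)) * 16 ^ j *
        Y ^ (2 / 3 : ℝ) * Y := by
  have h4 : (4 : ℝ) ^ j = 2 ^ j * 2 ^ j := by rw [← mul_pow]; norm_num
  have h16 : (16 : ℝ) ^ j = 4 ^ j * 4 ^ j := by rw [← mul_pow]; norm_num
  have h2 : (1 : ℝ) ≤ 2 ^ j := one_le_pow₀ (by norm_num)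
  have h41 : (1 : ℝ) ≤ 4 ^ j := one_le_pow₀ (by norm_num)
  have e1 : Y / (k / 2 ^ (j + 1)) ^ 2 = 4 ^ j * (4 / k ^ 2 * Y) := by
    rw [h4, pow_succ]
    field_simp
    ring
  have h1 : (Y / (k / 2 ^ (j + 1)) ^ 2) ^ (2 / 3 : ℝ) ≤
      4 ^ j * ((4 / k ^ 2) ^ (2 / 3 : ℝ) * Y ^ (2 / 3 : ℝ)) := by
    rw [e1, Real.mul_rpow (by positivity) (by positivity), Real.mul_rpow (by positivity) hY]
    refine mul_le_mul_of_nonneg_right ?_ (by positivity)
    exact Real.rpow_le_self_of_one_le h41 (by norm_num)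
  have h3 : P / (k / 2 ^ (j + 1)) + Q * (K / (d / 2 ^ (j + 1))) ^ 2 ≤
      4 ^ j * (2 * P / k + Q * (4 * K ^ 2 / d ^ 2)) := by
    have e2 : P / (k / 2 ^ (j + 1)) = 2 ^ j * (2 * P / k) := by
      rw [pow_succ]
      field_simp
    have e3 : (K / (d / 2 ^ (j + 1))) ^ 2 = 4 ^ j * (4 * K ^ 2 / d ^ 2) := by
      rw [h4, pow_succ 2 j]
      field_simp
      ring
    have h5 : (2 : ℝ) ^ j ≤ 4 ^ j := pow_le_pow_left₀ (by norm_num) (by norm_num) j
    have h6 : 0 ≤ 2 * P / k := by positivity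
    rw [e2, e3]
    nlinarith [mul_le_mul_of_nonneg_right h5 h6]
  calc _ ≤ Cs * (4 ^ j * ((4 / k ^ 2) ^ (2 / 3 : ℝ) * Y ^ (2 / 3 : ℝ))) *
        (4 ^ j * (2 * P / k + Q * (4 * K ^ 2 / d ^ 2)) * Y) := by gcongr
    _ = _ := by rw [h16]; ring

/-- The iteration for a subsolution. -/
theorem dg_core {c C M k d r2 r3 : ℝ} (hc : 0 < c) (hC : 0 < C) (hM : 0 ≤ M) (hk : 0 < k)
    (hd : 0 < d) (h2 : d < r2) (h23 : r2 ≤ r3) : ∃ ε : ℝ, 0 < ε ∧ ∀ (a : E3 → ℝ) (Ω : Set E3)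
    (N : ℝ) (w : S e3), AEStronglyMeasurable a volume → (∀ᵐ x, x ∈ Ω → c ≤ a x ∧ a x ≤ C) →
    (∀ᵐ x, w.f x ≤ N) → DGSub a Ω M w → shell (r2 - d) (r3 + d) ⊆ Ω →
    ∫ x in shell (r2 - d) (r3 + d), max (w.f x) 0 ^ 2 ≤ ε →
    ∀ᵐ x : E3, x ∈ shell r2 r3 → w.f x ≤ k := by
  obtain ⟨Cs, hCs, hstep⟩ := dg_step
  obtain ⟨K, hK, hcut⟩ := exists_shellCut
  obtain ⟨ε, hε, hit⟩ := dg_iter (D := Cs * (4 / k ^ 2) ^ (2 / 3 : ℝ) *
    (2 * (4 * M / c) / k + (4 * C / c + 1) * (4 * K ^ 2 / d ^ 2))) (by positivity)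
  refine ⟨ε, hε, fun a Ω N w ha hb hw H hΩ h0 => ?_⟩
  set T : ℕ → Set E3 := fun j => shell (r2 - d / 2 ^ j) (r3 + d / 2 ^ j) with hT
  set κ : ℕ → ℝ := fun j => k - k / 2 ^ j with hκ
  have h1 : ∀ j : ℕ, (1 : ℝ) ≤ 2 ^ j := fun j => one_le_pow₀ (by norm_num)
  have hdj : ∀ j : ℕ, 0 < d / 2 ^ j ∧ d / 2 ^ j ≤ d := fun j =>
    ⟨by positivity, div_le_self hd.le (h1 j)⟩
  have hκ0 : ∀ j, 0 ≤ κ j := fun j => sub_nonneg.2 (div_le_self hk.le (h1 j))
  have hκk : ∀ j, κ j ≤ k := fun j => sub_le_self _ (by positivity)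
  have hm : ∀ r s, MeasurableSet (shell r s) := fun r s => (isCompact_shell r s).measurableSet
  set Y : ℕ → ℝ := fun j => ∫ x in T j, max (w.f x - κ j) 0 ^ 2 with hY
  have hY0 : ∀ j, 0 ≤ Y j := fun j => integral_nonneg fun x => sq_nonneg _
  have hlim : Tendsto Y atTop (𝓝 0) := by
    refine hit Y hY0 (by simpa [hY, hT, hκ] using h0) fun j => ?_
    have e1 : d / 2 ^ j = 2 * (d / 2 ^ (j + 1)) := by
      rw [pow_succ]
      field_simp
    have e2 : κ j + k / 2 ^ (j + 1) = κ (j + 1) := by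
      simp only [hκ, pow_succ]
      field_simp
      ring
    obtain ⟨θ, t1, t2, -, t3, t4, t5, -, t6⟩ := hcut (r2 - d / 2 ^ j) (r3 + d / 2 ^ j)
      (d / 2 ^ (j + 1)) (by linarith [(hdj j).2]) (hdj _).1 (by linarith [(hdj (j + 1)).1])
    have h3 := hstep a Ω (T j) (T (j + 1)) c C M N (κ j) (k / 2 ^ (j + 1)) _ w θ ha hc hC hM hb hw H
      (hm _ _) (hm _ _) (isCompact_shell _ _).measure_lt_top.ne
      (fun x hx => hΩ ⟨by linarith [hx.1, (hdj j).2], by linarith [hx.2, (hdj j).2]⟩)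
      (mul1_of_compact (t1.of_le (by exact_mod_cast le_top)) t2) t3
      (fun x hx => t4 x ⟨by linarith [hx.1], by linarith [hx.2]⟩) t5 t6 (hκ0 j) (by positivity)
    rw [e2] at h3
    exact h3.trans (dg_num hCs (hY0 j) (by positivity) (by positivity) hk hd j)
  have hZ : ∫ x in shell r2 r3, max (w.f x - k) 0 ^ 2 ≤ 0 := by
    refine ge_of_tendsto' hlim fun j => ?_
    refine le_trans ?_ (setIntegral_mono_set (s := shell r2 r3) (dg_int w (hκ0 j)).integrableOn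
      (Eventually.of_forall fun x => sq_nonneg _) (LE.le.eventuallyLE fun x hx =>
        ⟨by linarith [hx.1, (hdj j).1], by linarith [hx.2, (hdj j).1]⟩))
    refine integral_mono (dg_int w hk.le).integrableOn (dg_int w (hκ0 j)).integrableOn fun x => ?_
    exact pow_le_pow_left₀ (le_max_right _ _) (max_le_max (by linarith [hκk j]) le_rfl) 2
  have hz := (integral_eq_zero_iff_of_nonneg (μ := volume.restrict (shell r2 r3))
    (fun x => sq_nonneg (max (w.f x - k) 0)) (dg_int w hk.le).integrableOn).1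
    (le_antisymm hZ (integral_nonneg fun x => sq_nonneg _))
  rw [Filter.EventuallyEq, ae_restrict_iff' (hm _ _)] at hz
  filter_upwards [hz] with x hx hx'
  have h5 : max (w.f x - k) 0 = 0 := pow_eq_zero_iff (two_ne_zero) |>.1 (hx hx')
  linarith [le_max_left (w.f x - k) 0]

theorem de_giorgi {c C M k r1 r2 r3 r4 : ℝ} (hc : 0 < c) (hk : 0 < k) (h1 : 0 < r1) (h12 : r1 < r2)
    (h23 : r2 ≤ r3) (h34 : r3 < r4) : ∃ ε : ℝ, 0 < ε ∧ ∀ (A B : S e3) (k0 : ℝ),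
    (∀ᵐ x : E3, r1 ≤ ‖x‖ → ‖x‖ ≤ r4 → c ≤ A.f x ∧ A.f x ≤ C ∧ |B.f x| ≤ C) → |k0| ≤ M →
    (∀ η : S e3, (∀ x, 0 ≤ η.f x) → (∃ L : ℝ, ∀ᵐ x, η.f x ≤ L) →
      (∀ x : E3, ‖x‖ ≤ r1 ∨ r4 ≤ ‖x‖ → η.f x = 0) →
      1 / 2 * ∑ j, ∫ x, (A.f x * B.g j x - B.f x * A.g j x) * η.g j x ≤ M * ∫ x, η.f x) →
    ∫ x in {x : E3 | r1 ≤ ‖x‖ ∧ ‖x‖ ≤ r4}, max (B.f x / A.f x - k0) 0 ^ 2 ≤ ε →
    ∀ᵐ x : E3, r2 ≤ ‖x‖ → ‖x‖ ≤ r3 → B.f x / A.f x ≤ k0 + k := by
  rcases lt_or_ge M 0 with hM | hM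
  · exact ⟨1, one_pos, fun A B k0 _ h => absurd (h.trans_lt hM) (abs_nonneg _).not_gt⟩
  set d := min (r2 - r1) (r4 - r3) / 3 with hd
  have hd0 : 0 < d := div_pos (lt_min (by linarith) (by linarith)) (by norm_num)
  have hd1 : 3 * d ≤ r2 - r1 := by linarith [min_le_left (r2 - r1) (r4 - r3)]
  have hd2 : 3 * d ≤ r4 - r3 := by linarith [min_le_right (r2 - r1) (r4 - r3)]
  obtain ⟨ε, hε, hcore⟩ := dg_core (c := c ^ 2) (C := C ^ 2 + 1) (r2 := r2) (r3 := r3)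
    (by positivity) (by positivity) hM hk hd0 (by linarith) h23
  obtain ⟨K, -, hcut⟩ := exists_shellCut
  obtain ⟨θ, t1, t2, t3, t4, t5, t6, t7, -⟩ := hcut r1 r4 d h1 hd0 (by linarith)
  have t1' : ContDiff ℝ 1 θ := t1.of_le (by exact_mod_cast le_top)
  refine ⟨ε, hε, fun A B k0 hb hk0 H h0 => ?_⟩
  have hq := quot A B t1' t2 hc (C := C) (by
    filter_upwards [hb] with x hx hx'
    exact ⟨(hx (t3 hx').1 (t3 hx').2).1, (hx (t3 hx').1 (t3 hx').2).2.2⟩)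
  set w : S e3 := S.of hq - k0 • S.of (of_C1c t1' t2) with hw
  set Ω : Set E3 := {x | r1 + d < ‖x‖ ∧ ‖x‖ < r4 - d} with hΩ
  have hwf : ∀ x, w.f x = θ x * (B.f x / A.f x - k0) := fun x => by
    simp only [hw, S.sub_f, S.smul_f, S.of_f]
    ring
  have hwΩ : ∀ x ∈ Ω, w.f x = B.f x / A.f x - k0 := fun x hx => by
    rw [hwf, t5 x ⟨hx.1.le, hx.2.le⟩, one_mul]
  have hwg : ∀ x ∈ Ω, ∀ j, w.g j x = (A.f x * B.g j x - B.f x * A.g j x) / A.f x ^ 2 :=
    fun x hx j => by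
      simp [hw, t5 x ⟨hx.1.le, hx.2.le⟩, t7 x hx.1 hx.2]
  have hbd : ∀ᵐ x : E3, x ∈ shell r1 r4 → |B.f x / A.f x - k0| ≤ |C| / c + M := by
    filter_upwards [hb] with x hx hx'
    obtain ⟨a1, -, a3⟩ := hx hx'.1 hx'.2
    refine (abs_sub _ _).trans (add_le_add ?_ hk0)
    rw [abs_div, abs_of_pos (hc.trans_le a1)]
    exact div_le_div₀ (abs_nonneg _) (a3.trans (le_abs_self _)) hc a1
  have hsub : shell (r2 - d) (r3 + d) ⊆ Ω := fun x hx =>
    ⟨by linarith [hx.1], by linarith [hx.2]⟩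
  have hres := hcore (fun x => A.f x ^ 2) Ω (|C| / c + M) w (A.mem.1.pow 2) ?_ ?_ ?_ hsub ?_
  · filter_upwards [hres] with x hx a1 a2
    have h3 := hx ⟨a1, a2⟩
    rw [hwΩ x ⟨by linarith, by linarith⟩] at h3
    linarith
  · filter_upwards [hb] with x hx hx'
    obtain ⟨a1, a2, -⟩ := hx (by linarith [hx'.1]) (by linarith [hx'.2])
    exact ⟨pow_le_pow_left₀ hc.le a1 2,
      (pow_le_pow_left₀ (hc.le.trans a1) a2 2).trans (by linarith)⟩
  · filter_upwards [hbd] with x hx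
    rw [hwf]
    by_cases hx' : x ∈ shell r1 r4
    · have h3 := abs_le.1 (hx hx')
      have h4 : 0 ≤ |C| / c + M := by positivity
      nlinarith [t4 x]
    · rw [(t6 x hx').1, zero_mul]
      positivity
  · intro η e1 e2 e3'
    refine le_of_eq_of_le ?_ (H η e1 e2 fun x hx => e3' x fun h => ?_)
    · congr 1
      refine Finset.sum_congr rfl fun j _ => integral_congr_ae ?_
      filter_upwards [hb, η.g_zero] with x hx hz
      by_cases hx' : x ∈ Ω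
      · have a1 := (hx (by linarith [hx'.1]) (by linarith [hx'.2])).1
        have a2 : A.f x ≠ 0 := (hc.trans_le a1).ne'
        rw [hwg x hx']
        field_simp
      · rw [hz (e3' x hx') j, mul_zero, mul_zero]
    · rcases hx with hx | hx
      · linarith [h.1]
      · linarith [h.2]
  · have hms : AEStronglyMeasurable (fun x => max (B.f x / A.f x - k0) 0 ^ 2) volume :=
      ((((B.mem.1.aemeasurable.div A.mem.1.aemeasurable).sub_const k0).max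
        aemeasurable_const).pow_const 2).aestronglyMeasurable
    have hint : IntegrableOn (fun x => max (B.f x / A.f x - k0) 0 ^ 2) (shell r1 r4) := by
      refine Measure.integrableOn_of_bounded (M := (|C| / c + M) ^ 2)
        (isCompact_shell r1 r4).measure_lt_top.ne hms ?_
      rw [ae_restrict_iff' (isCompact_shell r1 r4).measurableSet]
      filter_upwards [hbd] with x hx hx'
      rw [Real.norm_of_nonneg (sq_nonneg _)]
      exact pow_le_pow_left₀ (le_max_right _ _)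
        (max_le ((le_abs_self _).trans (hx hx')) (by positivity)) 2
    refine le_trans ?_ ((setIntegral_mono_set (s := shell (r2 - d) (r3 + d)) hint
      (Eventually.of_forall fun x => sq_nonneg _) (LE.le.eventuallyLE fun x hx =>
        ⟨by linarith [hx.1], by linarith [hx.2]⟩)).trans h0)
    refine (setIntegral_congr_fun (isCompact_shell _ _).measurableSet fun x hx => ?_).le
    simp only [hwΩ x (hsub hx)]

end Vale.Agent.P363
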