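import Vale.Agent.P363.K.Wr
import Vale.Agent.P363.K.DG

/-!
# P363 K/Use2  (TASK)

`de_giorgi` with `A = φ`, `B = ψ`, radii `7/2, 4, 5, 11/2`, `M = C² + 2κ`, `k₀ = -2κ`, where `2 κ C ≤ c m₁`, `orb 1 ≤ -m₁ = -nrm 1 * (3/4) * exp (-3)` on the shell.  `wr_eig`: `wr η φ ψ = (e₁ - e₀) ∫ η φ ψ ≤ C² ∫ η`
(`η` is integrable: bounded and supported in the shell, `volume_sh_ne_top`).  On the shell `ψ/φ + 2κ ≤ (ψ - t orb 1)/φ`, so `max (..) 0 ^ 2 ≤ (ψ - t orb 1)² / c₁²`.  Conclusion `ψ ≤ -κ φ ≤ -κ c₁`.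
-/

open MeasureTheory Filter Topology Set
open scoped ContDiff

set_option linter.unusedSectionVars false

noncomputable section

namespace Vale.Agent.P363

theorem ku2_int {η : S e3} {L r s : ℝ} (h0 : ∀ x, 0 ≤ η.f x) (hL : ∀ᵐ x, η.f x ≤ L)
    (hz : ∀ x : E3, ‖x‖ ≤ r ∨ s ≤ ‖x‖ → η.f x = 0) : Integrable η.f := by
  have h1 : IntegrableOn η.f (sh r s) := by
    refine Measure.integrableOn_of_bounded (M := L) (volume_sh_ne_top r s)
      η.mem.aestronglyMeasurable (ae_restrict_of_ae ?_)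
    filter_upwards [hL] with x hx
    rwa [Real.norm_of_nonneg (h0 x)]
  refine (integrableOn_iff_integrable_of_support_subset fun x hx => ?_).1 h1
  by_contra hn
  refine hx (hz x ?_)
  by_cases h : r ≤ ‖x‖
  · exact Or.inr (not_le.1 fun h2 => hn ⟨h, h2⟩).le
  · exact Or.inl (not_le.1 h).le

theorem ku2_prod {η a b : S e3} {L C r s : ℝ} (h0 : ∀ x, 0 ≤ η.f x) (hL : ∀ᵐ x, η.f x ≤ L)
    (hz : ∀ x : E3, ‖x‖ ≤ r ∨ s ≤ ‖x‖ → η.f x = 0) (ha : ∀ᵐ x, |a.f x| ≤ C)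
    (hb : ∀ᵐ x, |b.f x| ≤ C) {d : ℝ} (hd : 0 ≤ d) (hd1 : d ≤ 1) {M : ℝ} (hM : C ^ 2 ≤ M) :
    d * ∫ x, η.f x * (a.f x * b.f x) ≤ M * ∫ x, η.f x := by
  have hi := ku2_int h0 hL hz
  have h1 : |∫ x, η.f x * (a.f x * b.f x)| ≤ C ^ 2 * ∫ x, η.f x := by
    rw [← integral_const_mul, ← Real.norm_eq_abs]
    refine norm_integral_le_of_norm_le (hi.const_mul _) ?_
    filter_upwards [ha, hb] with x a1 a2
    rw [Real.norm_eq_abs, abs_mul, abs_mul, abs_of_nonneg (h0 x), mul_comm]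
    refine mul_le_mul_of_nonneg_right ?_ (h0 x)
    rw [sq]
    exact mul_le_mul a1 a2 (abs_nonneg _) ((abs_nonneg _).trans a1)
  have h2 : 0 ≤ ∫ x, η.f x := integral_nonneg h0
  calc d * ∫ x, η.f x * (a.f x * b.f x) ≤ d * |∫ x, η.f x * (a.f x * b.f x)| :=
        mul_le_mul_of_nonneg_left (le_abs_self _) hd
    _ ≤ 1 * |∫ x, η.f x * (a.f x * b.f x)| := mul_le_mul_of_nonneg_right hd1 (abs_nonneg _)
    _ ≤ C ^ 2 * ∫ x, η.f x := by rw [one_mul]; exact h1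
    _ ≤ M * ∫ x, η.f x := mul_le_mul_of_nonneg_right hM h2

theorem ku2_small {F : E3 → ℝ} (a : S e3) {c r s θ : ℝ} (hc : 0 < c) (ha : hn a ≤ θ)
    (h : ∀ᵐ x : E3, r ≤ ‖x‖ → ‖x‖ ≤ s → F x ≤ |a.f x| / c) :
    ∫ x in {x : E3 | r ≤ ‖x‖ ∧ ‖x‖ ≤ s}, max (F x) 0 ^ 2 ≤ θ / c ^ 2 := by
  have hi : Integrable fun x => a.f x ^ 2 / c ^ 2 := a.int_sq.div_const _
  calc ∫ x in sh r s, max (F x) 0 ^ 2 ≤ ∫ x in sh r s, a.f x ^ 2 / c ^ 2 := by
        refine integral_mono_of_nonneg (Eventually.of_forall fun x => sq_nonneg _) hi.integrableOn ?_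
        refine (ae_restrict_iff' (measurableSet_sh r s)).2 ?_
        filter_upwards [h] with x hx hx'
        have h1 : max (F x) 0 ≤ |a.f x| / c := max_le (hx hx'.1 hx'.2) (by positivity)
        have h2 := pow_le_pow_left₀ (le_max_right _ _) h1 2
        rwa [div_pow, sq_abs] at h2
    _ ≤ ∫ x, a.f x ^ 2 / c ^ 2 :=
        setIntegral_le_integral hi (Eventually.of_forall fun x => by positivity)
    _ = ip a a / c ^ 2 := by rw [integral_div, ip_self]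
    _ ≤ θ / c ^ 2 := div_le_div_of_nonneg_right ((ip_le_hn a).trans ha) (by positivity)

theorem ku2_abs {η : S e3} {L C : ℝ} (h0 : ∀ x, 0 ≤ η.f x) (hL : ∀ᵐ x, η.f x ≤ L) :
    ∀ᵐ x, |η.f x| ≤ max L C := by
  filter_upwards [hL] with x hx
  rw [abs_of_nonneg (h0 x)]
  exact hx.trans (le_max_left _ _)

theorem ku2_orb {x : E3} (h1 : 7 / 2 ≤ ‖x‖) (h2 : ‖x‖ ≤ 11 / 2) :
    (orb 1).f x ≤ -(nrm 1 * (3 / 4 * Real.exp (-3))) := by
  rw [orb_f, raw_one, ← mul_neg]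
  refine mul_le_mul_of_nonneg_left ?_ (nrm_pos 1).le
  have h3 : Real.exp (-3) ≤ Real.exp (-‖x‖ / 2) := Real.exp_le_exp.2 (by linarith)
  have h4 := Real.exp_pos (-3)
  nlinarith

theorem use2 {c c₁ C : ℝ} (hc : 0 < c) (hc₁ : 0 < c₁) (hC : 0 < C) : ∃ θ c₂ : ℝ, 0 < θ ∧ 0 < c₂ ∧
    ∀ (v : E3 → ℝ) (e₀ e₁ t : ℝ) (φ ψ : S e3), FB e3 v → 0 ≤ e₁ - e₀ → e₁ - e₀ ≤ 1 →
      (∀ᵐ x, 0 ≤ φ.f x ∧ φ.f x ≤ C) → (∀ᵐ x, |ψ.f x| ≤ C) →
      (∀ᵐ x, x ∈ sh (7 / 2) (11 / 2) → c₁ ≤ φ.f x) → Eig v e₀ φ → Eig v e₁ ψ → c ≤ t →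
      hn (ψ - t • orb 1) ≤ θ → ∀ᵐ x, x ∈ sh 4 5 → ψ.f x ≤ -c₂ := by
  set m : ℝ := nrm 1 * (3 / 4 * Real.exp (-3)) with hm
  have hm0 : 0 < m := mul_pos (nrm_pos 1) (by positivity)
  set κ : ℝ := c * m / (2 * C) with hκ
  have hκ0 : 0 < κ := by positivity
  have hκC : 2 * κ * C = c * m := by rw [hκ]; field_simp
  obtain ⟨ε, hε, hD⟩ := de_giorgi (c := c₁) (C := C) (M := C ^ 2 + 2 * κ) (k := κ) (r1 := 7 / 2)
    (r2 := 4) (r3 := 5) (r4 := 11 / 2) hc₁ hκ0 (by norm_num) (by norm_num) (by norm_num) (by norm_num)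
  refine ⟨ε * c₁ ^ 2, κ * c₁, by positivity, by positivity, ?_⟩
  intro v e₀ e₁ t φ ψ hv d0 d1 hφ hψ hl h0 h1 ht hθ
  have hφ' : ∀ᵐ x, |φ.f x| ≤ C := hφ.mono fun x hx => by rw [abs_of_nonneg hx.1]; exact hx.2
  have key := hD φ ψ (-(2 * κ))
    (by
      filter_upwards [hφ, hψ, hl] with x a1 a2 a3 b1 b2
      exact ⟨a3 ⟨b1, b2⟩, a1.2, a2⟩)
    (by rw [abs_neg, abs_of_pos (by positivity)]; nlinarith [sq_nonneg C])
    (by
      rintro η e0 ⟨L, hL⟩ hz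
      have := wr_eig hv η (C := max L C) (ku2_abs e0 hL)
        (hφ'.mono fun x hx => hx.trans (le_max_right _ _))
        (hψ.mono fun x hx => hx.trans (le_max_right _ _)) h0 h1
      change wr η φ ψ ≤ _
      rw [this]
      exact ku2_prod e0 hL hz hφ' hψ d0 d1 (by linarith))
    (by
      have := ku2_small (F := fun x => ψ.f x / φ.f x - -(2 * κ)) (ψ - t • orb 1) hc₁ hθ
        (r := 7 / 2) (s := 11 / 2) (by
          filter_upwards [hφ, hl] with x a1 a2 b1 b2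
          have a3 := a2 ⟨b1, b2⟩
          have a4 : 0 < φ.f x := hc₁.trans_le a3
          have a5 := ku2_orb b1 b2
          rw [← hm] at a5
          have a6 : 2 * κ * φ.f x ≤ -(t * (orb 1).f x) := by
            have b3 : 2 * κ * φ.f x ≤ 2 * κ * C := mul_le_mul_of_nonneg_left a1.2 (by positivity)
            have b4 : c * m ≤ t * m := mul_le_mul_of_nonneg_right ht hm0.le
            have b5 : t * (orb 1).f x ≤ t * -m := mul_le_mul_of_nonneg_left a5 (hc.le.trans ht)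
            linarith
          calc ψ.f x / φ.f x - -(2 * κ) = (ψ.f x + 2 * κ * φ.f x) / φ.f x := by
                field_simp
                ring
            _ ≤ |(ψ - t • orb 1).f x| / φ.f x := by
                refine div_le_div_of_nonneg_right ?_ a4.le
                refine le_trans ?_ (le_abs_self _)
                rw [S.sub_f, S.smul_f]
                linarith
            _ ≤ |(ψ - t • orb 1).f x| / c₁ := div_le_div_of_nonneg_left (abs_nonneg _) hc₁ a3)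
      rwa [mul_div_assoc, div_self (by positivity), mul_one] at this)
  filter_upwards [key, hl] with x a1 a2 hx
  have a3 := a2 (sh_mono (by norm_num) (by norm_num) hx)
  have a4 : 0 < φ.f x := hc₁.trans_le a3
  have a5 := a1 hx.1 hx.2
  rw [div_le_iff₀ a4] at a5
  nlinarith

end Vale.Agent.P363
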