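import Vale.Agent.P363.K.Spec
import Vale.Agent.P363.K.Sub
import Vale.Agent.P363.K.Delta
import Vale.Agent.P363.K.Mat2
import Vale.Agent.P363.K.Mat3
import Vale.Agent.P363.K.Phi
import Vale.Agent.P363.K.Psi
import Vale.Agent.P363.K.Use1
import Vale.Agent.P363.K.Use2
import Vale.Agent.P363.K.Fin2

/-!
# P363 K/Main

Block K (sub-lead helper54), see `notes/P363.md`.
-/

open MeasureTheory Filter Topology Set
open scoped ContDiff

set_option linter.unusedSectionVars false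

noncomputable section

namespace Vale.Agent.P363

theorem ks_main {c : ℝ} (hc : 0 < c) (C : ℝ) : ∃ η : ℝ, 0 < η ∧
    ∀ (Y Y' : Type) [MeasurableSpace Y] [MeasurableSpace Y'] (ν : Measure Y) (ν' : Measure Y')
      [SFinite ν] [SFinite ν'] (A : Fib ν) (A' : Fib ν') (v : E3 → ℝ), FB e3 v → A.Four → A'.Four →
      A.n =ᵐ[volume] A'.n → A.en V0 ≤ -(5 / 4) + η → A'.en V0 ≤ -(5 / 4) + η →
      c ≤ A'.gam (orb 1).f (orb 1).f → A'.gam (orb 1).f (orb 1).f ≤ 1 →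
      (∀ k, ∀ᵐ x, A.n (rf k x) = A.n x) → (∀ᵐ x, A.n x ≤ C) →
      (∀ᵐ x : E3, 3 ≤ ‖x‖ → ‖x‖ ≤ 6 → c ≤ A.n x) →
      (∀ g₁ g₂ : S e3, ip g₁ g₁ = 1 → ip g₂ g₂ = 1 → ip g₁ g₂ = 0 →
        A.en v ≤ 2 * qf v g₁ g₁ + 2 * qf v g₂ g₂) →
      NoNode A.n := by
  have hc2 : 0 < c / 2 := by positivity
  set K : ℝ := 3 * √(max C 1) with hK
  have hs1 : 1 ≤ √(max C 1) := Real.one_le_sqrt.2 (le_max_right _ _)
  have hK0 : 0 < K := by rw [hK]; linarith
  obtain ⟨θL, hθL, hL⟩ := level_gap hc2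
  obtain ⟨θ1, c1, hθ1, hc1, hU1⟩ := use1 (Real.sqrt_pos.2 hc) hK0
  obtain ⟨θ2, c2, hθ2, hc2', hU2⟩ := use2 hc2 hc1 hK0
  obtain ⟨θψ, hθψ, hψ⟩ := psi_exists (lt_min hθL hθ2)
  obtain ⟨θφ, hθφ, hφ⟩ := phi_close hc2 (lt_min hθψ (lt_min hθL hθ1))
  obtain ⟨D, hD, hA⟩ := app_close
  have hθG : 0 < min (min θψ θφ) (min 1 (θL / D)) :=
    lt_min (lt_min hθψ hθφ) (lt_min one_pos (div_pos hθL hD))
  set θG : ℝ := min (min θψ θφ) (min 1 (θL / D)) with hθGd
  obtain ⟨θa, hθa, ha⟩ := g11_close hc2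
  obtain ⟨θb, hθb, hb⟩ := g1k_small hθG
  obtain ⟨η, hη, hN⟩ := near_of_en (lt_min hθG (lt_min hθa hθb))
  refine ⟨η, hη, ?_⟩
  intro Y Y' _ _ ν ν' _ _ A A' v hv h4 h4' hn' he he' hlo hhi hev hC hsh hmin
  have N1 := hN Y ν A h4 he
  have N2 := hN Y' ν' A' h4' he'
  have h11 := ha Y Y' ν ν' A A' (N1.mono ((min_le_right _ _).trans (min_le_left _ _)))
    (N2.mono ((min_le_right _ _).trans (min_le_left _ _))) hn'
  have h11' := abs_le.1 h11
  have hlo' : c ≤ A'.G 1 1 := hlo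
  have hhi' : A'.G 1 1 ≤ 1 := hhi
  have hG : A.Good (c / 2) θG :=
    ⟨N1.mono (min_le_left _ _), by linarith [h11'.1], by linarith [h11'.2],
      hb Y ν A (N1.mono ((min_le_right _ _).trans (min_le_right _ _))) hev⟩
  have hsq : ∀ᵐ x, √(A.n x) ≤ √(max C 1) := by
    filter_upwards [hC] with x hx
    exact Real.sqrt_le_sqrt (hx.trans (le_max_left _ _))
  have bd : ∀ a : S e3, (∀ᵐ x, |a.f x| ≤ 3 * √(A.n x)) → ∀ᵐ x, |a.f x| ≤ K := by
    intro a h
    filter_upwards [h, hsq] with x h1 h2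
    rw [hK]; linarith
  have bsq : ∀ a : S e3, (∀ᵐ x, a.f x ^ 2 ≤ 2 * A.n x) → ∀ᵐ x, |a.f x| ≤ 3 * √(A.n x) := by
    intro a h
    filter_upwards [h] with x h1
    have h2 := Real.sq_sqrt (A.n_nonneg x)
    have h3 := A.n_nonneg x
    exact abs_le.2 (abs_le_of_sq_le_sq' (by nlinarith) (by positivity))
  have hG2 : A.G 1 1 ≤ 2 := h4.G_le 1
  rcases ks_dich hv hmin with ⟨e0, hg, hE⟩ | ⟨φ, e0, e1, hlt, hφ0, hφ1, hφe, hg, hE⟩
  · exfalso
    obtain ⟨hsl, -⟩ := Fib.null_sl h4 hv le_rfl (by rw [ip_orb, if_pos rfl]) hg (by linarith)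
    have eig : ∀ a, Eig v e0 (A.app a) := fun a b => by
      have := Fib.app_eq hv hsl a b
      linarith
    have bapp : ∀ j, ∀ᵐ x, |(A.app (orb j)).f x| ≤ K := fun j => by
      refine bd _ (bsq _ ?_)
      filter_upwards [A.app_sq_le (orb j)] with x hx
      have h1 : A.gam (orb j).f (orb j).f ≤ 2 := h4.G_le j
      nlinarith [A.n_nonneg x]
    obtain ⟨a1, a2⟩ := hA Y ν A (c / 2) θG ((min_le_right _ _).trans (min_le_left _ _)) hG
    have hDθ : D * θG ≤ θL := by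
      have : θG ≤ θL / D := (min_le_right _ _).trans (min_le_right _ _)
      rw [le_div_iff₀ hD] at this
      linarith
    have := (hL v e0 e0 2 (A.G 1 1) K _ _ hv (eig (orb 0)) (eig (orb 1)) (bapp 0) (bapp 1)
      (by norm_num) le_rfl hG.lo hG2 (a1.trans hDθ) (a2.trans hDθ)).1
    linarith
  · obtain ⟨hsl, h2⟩ := Fib.null_sl h4 hv (sub_pos.2 hlt).le hφ1 hg (by linarith)
    have hg2 : A.gam φ.f φ.f = 2 := by
      rcases mul_eq_zero.1 h2 with h | h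
      · linarith
      · linarith
    obtain ⟨u, hu⟩ := A.exists_sqrt
    have hsub := Fib.sqrt_sub h4 hu hv (sub_pos.2 hlt).le hφ1 hg2 hsl
    have hφc := hφ Y ν A φ (hG.mono ((min_le_left _ _).trans (min_le_right _ _))) hφ0 hφ1 hg2
    obtain ⟨ψ, hψe, hψb, hψc⟩ := hψ Y ν A (c / 2) v e0 e1 φ
      (hG.mono ((min_le_left _ _).trans (min_le_left _ _))) hv hφ1 hg2 hφe hsl
      (hφc.trans (min_le_left _ _))
    have hφb : ∀ᵐ x, |φ.f x| ≤ K := by
      refine bd _ (bsq _ ?_)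
      filter_upwards [Fib.phi_sq_le h4 hφ1 hg2] with x hx
      linarith [A.n_nonneg x]
    have hφb' : ∀ᵐ x, 0 ≤ φ.f x ∧ φ.f x ≤ K := by
      filter_upwards [hφ0, hφb] with x h1 h2
      exact ⟨h1, (le_abs_self _).trans h2⟩
    have hub : ∀ᵐ x, 0 ≤ u.f x ∧ u.f x ≤ K := by
      filter_upwards [hsq] with x hx
      rw [hu.f x, hK]
      exact ⟨Real.sqrt_nonneg _, by linarith⟩
    obtain ⟨d0, d1, hp⟩ := hL v e0 e1 1 (A.G 1 1) K φ ψ hv hφe hψe hφb (bd _ hψb) le_rfl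
      (by norm_num) hG.lo hG2
      (by rw [one_smul]; exact hφc.trans ((min_le_right _ _).trans (min_le_left _ _)))
      (hψc.trans (min_le_left _ _))
    have l1 := hU1 v e0 e1 u φ hv d0.le d1 hub hφb'
      (by
        filter_upwards [hsh] with x hx hx'
        rw [hu.f x]
        exact Real.sqrt_le_sqrt (hx hx'.1 hx'.2))
      hφe hsub (hφc.trans ((min_le_right _ _).trans (min_le_right _ _)))
    have l2 := hU2 v e0 e1 (A.G 1 1) φ ψ hv d0.le d1 hφb' (bd _ hψb) l1 hφe hψe hG.lo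
      (hψc.trans (min_le_right _ _))
    have hc3 : 0 < c2 / K := div_pos hc2' hK0
    have l3 := outer_sign hv hlt hc3 hφ0 hφ1 hφe hg hψe (hub.mono fun x hx => hx.1) hsub
      (by
        filter_upwards [l2, hub] with x h1 h2 hx
        have h3 : c2 / K * u.f x ≤ c2 / K * K := mul_le_mul_of_nonneg_left h2.2 hc3.le
        rw [div_mul_cancel₀ _ hK0.ne'] at h3
        linarith [h1 hx])
      hp
    refine nonode_of hv hc3 hψe hψb ?_
    filter_upwards [l3] with x hx hx'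
    have := hx hx'
    rwa [hu.f x] at this

end Vale.Agent.P363
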