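import Vale.Agent.P363.A.Trunc
import Vale.Agent.P363.A.Cut

/-!
# P363 K/DGa  (TASK): Caccioppoli inequality

`p = S.of (posPart w hκ)`, `q = S.of (mul1 p hθ)`, `η = S.of (mul1 q hθ)`, so `η.f = θ (θ p)` and
`η.g j = θ (θ p.g j + dθ j p) + dθ j (θ p)`.  Pointwise `w.g j * p.g j = p.g j ^ 2` and `w.g j * p.f = p.g j * p.f` (`split_ifs`, `max_eq_right`).
Pointwise a.e.: `c / 4 * θ² ∑ p.g j ² - C * ‖dθ‖² p² ≤ 1 / 2 * ∑ a * w.g j * η.g j` (trivial when `θ x = 0`, note `0 < C` or the right side is fine as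
`θ x ≠ 0` gives `x ∈ Ω`; otherwise `c ≤ a ≤ C` and `2 s t ≥ - s² / 2 - 2 t²`; `sum_sq_apply_e3`).  Integrability of `a * w.g j * η.g j`: dominated by
`C |w.g j * η.g j|` (`S.int_gmul`, `η.g j x = 0` when `θ x = 0`).  `kin q q ≤ ∫ θ² ∑ p.g j ² + ∫ ‖dθ‖² p²` (`kin_self`).
Helper lemma names start with `dga_`.
-/

open MeasureTheory Filter Topology Set
open scoped ContDiff

set_option linter.unusedSectionVars false

noncomputable section

namespace Vale.Agent.P363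

/-- `w` is a subsolution of `-½ div (a ∇ w) ≤ M` in `Ω`. -/
def DGSub (a : E3 → ℝ) (Ω : Set E3) (M : ℝ) (w : S e3) : Prop :=
  ∀ η : S e3, (∀ x, 0 ≤ η.f x) → (∃ L : ℝ, ∀ᵐ x, η.f x ≤ L) → (∀ x, x ∉ Ω → η.f x = 0) →
    1 / 2 * ∑ j, ∫ x, a x * w.g j x * η.g j x ≤ M * ∫ x, η.f x

theorem dga_pt {a c C t p : ℝ} {G D W : Fin 3 → ℝ} (hc : 0 < c) (hC : 0 < C)
    (hb : t ≠ 0 → c ≤ a ∧ a ≤ C) (h1 : ∀ j, W j * G j = G j ^ 2) (h2 : ∀ j, W j * p = G j * p) :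
    c / 4 * (t ^ 2 * ∑ j, G j ^ 2) - C * ((∑ j, D j ^ 2) * p ^ 2) ≤
      1 / 2 * ∑ j, a * W j * (t * (t * G j + D j * p) + D j * (t * p)) := by
  have hD : 0 ≤ (∑ j, D j ^ 2) * p ^ 2 := by positivity
  rcases eq_or_ne t 0 with rfl | ht
  · simp only [zero_mul, mul_zero, add_zero, Finset.sum_const_zero, ne_eq, OfNat.ofNat_ne_zero,
      not_false_eq_true, zero_pow]
    nlinarith
  obtain ⟨a1, a2⟩ := hb ht
  have e : ∀ j, a * W j * (t * (t * G j + D j * p) + D j * (t * p)) =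
      a * (t ^ 2 * G j ^ 2 + 2 * (t * G j) * (D j * p)) := fun j => by
    linear_combination a * t ^ 2 * h1 j + 2 * a * t * D j * h2 j
  simp only [e]
  have hG : 0 ≤ t ^ 2 * ∑ j, G j ^ 2 := by positivity
  have h3 : 1 / 4 * (t ^ 2 * ∑ j, G j ^ 2) - (∑ j, D j ^ 2) * p ^ 2 ≤
      1 / 2 * ∑ j, (t ^ 2 * G j ^ 2 + 2 * (t * G j) * (D j * p)) := by
    simp only [Fin.sum_univ_three]
    nlinarith [sq_nonneg (t * G 0 + 2 * (D 0 * p)), sq_nonneg (t * G 1 + 2 * (D 1 * p)),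
      sq_nonneg (t * G 2 + 2 * (D 2 * p))]
  rw [← Finset.mul_sum]
  nlinarith [mul_le_mul_of_nonneg_left h3 (hc.le.trans a1)]

theorem dg_cacc {a : E3 → ℝ} (ha : AEStronglyMeasurable a volume) {Ω : Set E3} {c C M N : ℝ}
    (hc : 0 < c) (hC : 0 < C) (hb : ∀ᵐ x, x ∈ Ω → c ≤ a x ∧ a x ≤ C) (w : S e3)
    (hw : ∀ᵐ x, w.f x ≤ N) (H : DGSub a Ω M w) {θ : E3 → ℝ} (hθ : Mul1 θ)
    (h0 : ∀ x, 0 ≤ θ x ∧ θ x ≤ 1) (hΩ : ∀ x, x ∉ Ω → θ x = 0) {κ : ℝ} (hκ : 0 ≤ κ) :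
    ∃ q : S e3, (∀ x, q.f x = θ x * max (w.f x - κ) 0) ∧
      kin q q ≤ 4 * M / c * (∫ x, θ x * (θ x * max (w.f x - κ) 0)) +
        (4 * C / c + 1) * ∫ x, ‖fderiv ℝ θ x‖ ^ 2 * max (w.f x - κ) 0 ^ 2 := by
  set p : S e3 := S.of (posPart w hκ) with hp
  set q : S e3 := S.of (mul1 p hθ) with hq
  set η : S e3 := S.of (mul1 q hθ) with hη
  have pf : ∀ x, p.f x = max (w.f x - κ) 0 := fun x => rfl
  have pg : ∀ j x, p.g j x = if κ < w.f x then w.g j x else 0 := fun j x => rfl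
  have qf' : ∀ x, q.f x = θ x * p.f x := fun x => rfl
  have qg : ∀ j x, q.g j x = θ x * p.g j x + fderiv ℝ θ x (e3 j) * p.f x := fun j x => rfl
  have ηf : ∀ x, η.f x = θ x * (θ x * p.f x) := fun x => rfl
  have ηg : ∀ j x, η.g j x = θ x * (θ x * p.g j x + fderiv ℝ θ x (e3 j) * p.f x) +
    fderiv ℝ θ x (e3 j) * (θ x * p.f x) := fun j x => rfl
  refine ⟨q, fun x => rfl, ?_⟩
  obtain ⟨hθ1, L, hL⟩ := hθ
  have hp0 : ∀ x, 0 ≤ p.f x := fun x => le_max_right _ _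
  have h1 := H η (fun x => mul_nonneg (h0 x).1 (mul_nonneg (h0 x).1 (hp0 x))) ⟨max (N - κ) 0, ?_⟩
    (fun x hx => by rw [ηf, hΩ x hx, zero_mul])
  swap
  · filter_upwards [hw] with x hx
    rw [ηf]
    refine (mul_le_of_le_one_left (mul_nonneg (h0 x).1 (hp0 x)) (h0 x).2).trans
      ((mul_le_of_le_one_left (hp0 x) (h0 x).2).trans ?_)
    exact max_le_max (by linarith) le_rfl
  have i1 : ∀ j, Integrable fun x => a x * w.g j x * η.g j x := fun j => by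
    refine ((w.int_gmul η j j).norm.const_mul C).mono'
      ((ha.mul (w.gmem j).1).mul (η.gmem j).1) ?_
    filter_upwards [hb] with x hx
    by_cases h : θ x = 0
    · rw [ηg, h]
      simp
    · have h2 := hx (by_contra fun h' => h (hΩ x h'))
      rw [mul_assoc, norm_mul, Real.norm_of_nonneg (hc.le.trans h2.1)]
      exact mul_le_mul_of_nonneg_right h2.2 (norm_nonneg _)
  have i2 : Integrable fun x => θ x ^ 2 * ∑ j, p.g j x ^ 2 :=
    (integrable_finsetSum _ fun j _ => p.int_gsq j).bdd_mul (c := 1)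
      (hθ1.continuous.pow 2).aestronglyMeasurable (Eventually.of_forall fun x => by
        rw [Real.norm_of_nonneg (sq_nonneg _)]
        exact pow_le_one₀ (h0 x).1 (h0 x).2)
  have i3 : Integrable fun x => ‖fderiv ℝ θ x‖ ^ 2 * p.f x ^ 2 :=
    p.int_sq.bdd_mul (c := L ^ 2)
      ((hθ1.continuous_fderiv (by simp)).norm.pow 2).aestronglyMeasurable
      (Eventually.of_forall fun x => by
        rw [Real.norm_of_nonneg (sq_nonneg _)]
        exact pow_le_pow_left₀ (norm_nonneg _) (hL x).2 2)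
  have h2 : c / 4 * (∫ x, θ x ^ 2 * ∑ j, p.g j x ^ 2) -
      C * ∫ x, ‖fderiv ℝ θ x‖ ^ 2 * p.f x ^ 2 ≤
      1 / 2 * ∑ j, ∫ x, a x * w.g j x * η.g j x := by
    rw [← integral_finsetSum _ fun j _ => i1 j, ← integral_const_mul, ← integral_const_mul,
      ← integral_const_mul, ← integral_sub (i2.const_mul _) (i3.const_mul _)]
    refine integral_mono_ae ((i2.const_mul _).sub (i3.const_mul _))
      ((integrable_finsetSum _ fun j _ => i1 j).const_mul _) ?_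
    filter_upwards [hb] with x hx
    simp only [ηg, ← sum_sq_apply_e3]
    refine dga_pt hc hC (fun h => hx (by_contra fun h' => h (hΩ x h'))) (fun j => ?_) fun j => ?_
    · rw [pg]
      split_ifs <;> ring
    · rw [pg, pf]
      split_ifs with h
      · rfl
      · rw [max_eq_right (by linarith), mul_zero, mul_zero]
  have h3 : kin q q ≤ (∫ x, θ x ^ 2 * ∑ j, p.g j x ^ 2) +
      ∫ x, ‖fderiv ℝ θ x‖ ^ 2 * p.f x ^ 2 := by
    rw [kin_self, ← integral_const_mul, ← integral_add i2 i3]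
    refine integral_mono ((integrable_finsetSum _ fun j _ => q.int_gsq j).const_mul _) (i2.add i3)
      fun x => ?_
    simp only [qg, ← sum_sq_apply_e3, Fin.sum_univ_three]
    nlinarith [sq_nonneg (θ x * p.g 0 x - fderiv ℝ θ x (e3 0) * p.f x),
      sq_nonneg (θ x * p.g 1 x - fderiv ℝ θ x (e3 1) * p.f x),
      sq_nonneg (θ x * p.g 2 x - fderiv ℝ θ x (e3 2) * p.f x)]
  have h4 := h2.trans h1
  simp only [ηf] at h4
  simp only [← pf]
  set X := ∫ x, θ x ^ 2 * ∑ j, p.g j x ^ 2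
  set Y := ∫ x, ‖fderiv ℝ θ x‖ ^ 2 * p.f x ^ 2
  set Z := ∫ x, θ x * (θ x * p.f x)
  have h5 : X ≤ 4 * M / c * Z + 4 * C / c * Y := by
    have e : 4 * M / c * Z + 4 * C / c * Y = (4 * (M * Z + C * Y)) / c := by ring
    rw [e, le_div_iff₀ hc]
    linarith
  linarith

end Vale.Agent.P363
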