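import Vale.Agent.P363.K.DGa
import Vale.Agent.P363.A.Sobolev

/-!
# P363 K/DGb  (TASK): one step of the De Giorgi iteration

`Cs` from `sob_supp`, `q` from `dg_cacc` at the level `κ + δ`.  `(w - κ)₊² ≤ w²` is integrable.  Replace `w.f` by a measurable representative `f`
(`w.mem.1.mk`), `E = T ∩ {κ + δ < f}`; `δ² * volume.real E ≤ Y` (`setIntegral_mono_set`, `setIntegral_ge_of_const_le_real`, or
`mul_meas_ge_le_integral_of_nonneg` for `volume.restrict T`); `q = 0` a.e. off `E`.  Pointwise `θ (θ (w - κ - δ)₊) ≤ T.indicator ((w - κ)₊² / δ)` and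
`‖dθ‖² (w - κ - δ)₊² ≤ T.indicator (L² (w - κ)₊²)` (`integral_indicator`, `integral_mono_of_nonneg`).  `∫ x in T', (w - κ - δ)₊² ≤ ∫ q² = ip q q`
(`setIntegral_congr_fun`, `setIntegral_le_integral`, `ip_self`).
Helper lemma names start with `dgb_`.
-/

open MeasureTheory Filter Topology Set
open scoped ContDiff

set_option linter.unusedSectionVars false

noncomputable section

namespace Vale.Agent.P363

theorem dgb_le {T : Set E3} (hT : MeasurableSet T) {u v : E3 → ℝ} (hu : Integrable u) (c : ℝ)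
    (h0 : ∀ x, 0 ≤ v x) (h1 : ∀ x ∈ T, v x ≤ c * u x) (h2 : ∀ x, x ∉ T → v x = 0) :
    ∫ x, v x ≤ c * ∫ x in T, u x := by
  rw [← integral_const_mul, ← integral_indicator hT]
  refine integral_mono_of_nonneg (.of_forall h0) ((hu.const_mul c).indicator hT)
    (.of_forall fun x => ?_)
  by_cases hx : x ∈ T
  · rw [indicator_of_mem hx]
    exact h1 x hx
  · rw [indicator_of_notMem hx]
    exact (h2 x hx).le

theorem dgb_pt {t δ : ℝ} (hδ : 0 < δ) : max (t - δ) 0 ≤ 1 / δ * max t 0 ^ 2 := by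
  rw [one_div, ← div_eq_inv_mul, le_div_iff₀ hδ]
  rcases le_total (t - δ) 0 with h | h
  · rw [max_eq_right h, zero_mul]
    positivity
  · rw [max_eq_left h, max_eq_left (by linarith)]
    nlinarith [sq_nonneg (t - δ), sq_nonneg δ, sq_nonneg t]

theorem dg_step : ∃ Cs : ℝ, 0 < Cs ∧ ∀ (a : E3 → ℝ) (Ω T T' : Set E3) (c C M N κ δ L : ℝ) (w : S e3)
    (θ : E3 → ℝ), AEStronglyMeasurable a volume → 0 < c → 0 < C → 0 ≤ M →
    (∀ᵐ x, x ∈ Ω → c ≤ a x ∧ a x ≤ C) → (∀ᵐ x, w.f x ≤ N) → DGSub a Ω M w →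
    MeasurableSet T → MeasurableSet T' → volume T ≠ ⊤ → T ⊆ Ω → Mul1 θ →
    (∀ x, 0 ≤ θ x ∧ θ x ≤ 1) → (∀ x ∈ T', θ x = 1) → (∀ x, x ∉ T → θ x = 0 ∧ fderiv ℝ θ x = 0) →
    (∀ x, ‖fderiv ℝ θ x‖ ≤ L) → 0 ≤ κ → 0 < δ →
    ∫ x in T', max (w.f x - (κ + δ)) 0 ^ 2 ≤
      Cs * ((∫ x in T, max (w.f x - κ) 0 ^ 2) / δ ^ 2) ^ (2 / 3 : ℝ) *
        ((4 * M / c / δ + (4 * C / c + 1) * L ^ 2) * ∫ x in T, max (w.f x - κ) 0 ^ 2) := by
  obtain ⟨Cs, hCs, hs⟩ := sob_supp
  refine ⟨Cs, hCs, fun a Ω T T' c C M N κ δ L w θ ha hc hC hM hb hw H hT hT' hv hΩ hθ h0 h1 h2 hL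
    hκ hδ => ?_⟩
  obtain ⟨q, hq, hk⟩ := dg_cacc ha hc hC hb w hw H hθ h0 (fun x hx => (h2 x fun h => hx (hΩ h)).1)
    (κ := κ + δ) (by linarith)
  have hu : Integrable fun x => max (w.f x - κ) 0 ^ 2 := (S.of (posPart w hκ)).int_sq
  have hY : 0 ≤ ∫ x in T, max (w.f x - κ) 0 ^ 2 := integral_nonneg fun _ => sq_nonneg _
  have hE : MeasurableSet (T ∩ {x | κ + δ < w.mem.1.mk w.f x}) :=
    hT.inter (measurableSet_lt measurable_const w.mem.1.stronglyMeasurable_mk.measurable)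
  have hEv : volume (T ∩ {x | κ + δ < w.mem.1.mk w.f x}) ≠ ⊤ :=
    ne_top_of_le_ne_top hv (measure_mono inter_subset_left)
  have a1 : volume.real (T ∩ {x | κ + δ < w.mem.1.mk w.f x}) ≤
      (∫ x in T, max (w.f x - κ) 0 ^ 2) / δ ^ 2 := by
    rw [le_div_iff₀ (by positivity), ← smul_eq_mul, ← setIntegral_const]
    refine (setIntegral_mono_on_ae (integrableOn_const hEv) hu.integrableOn hE ?_).trans
      (setIntegral_mono_set hu.integrableOn (.of_forall fun _ => sq_nonneg _)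
        inter_subset_left.eventuallyLE)
    filter_upwards [w.mem.1.ae_eq_mk] with x e hx
    have : κ + δ < w.f x := e ▸ hx.2
    exact pow_le_pow_left₀ hδ.le (le_max_of_le_left (by linarith)) 2
  have a2 := hs q _ hE hEv (by
    filter_upwards [w.mem.1.ae_eq_mk] with x e hx
    rw [hq]
    by_cases h : x ∈ T
    · have : w.f x ≤ κ + δ := e ▸ not_lt.1 fun h' => hx ⟨h, h'⟩
      rw [max_eq_right (by linarith), mul_zero]
    · rw [(h2 x h).1, zero_mul])
  have a3 := dgb_le hT hu (1 / δ) (v := fun x => θ x * (θ x * max (w.f x - (κ + δ)) 0))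
    (fun x => mul_nonneg (h0 x).1 (mul_nonneg (h0 x).1 (le_max_right _ _)))
    (fun x _ => (mul_le_of_le_one_left (mul_nonneg (h0 x).1 (le_max_right _ _)) (h0 x).2).trans
      ((mul_le_of_le_one_left (le_max_right _ _) (h0 x).2).trans (by
        rw [← sub_sub]; exact dgb_pt hδ))) fun x hx => by rw [(h2 x hx).1, zero_mul]
  have a4 := dgb_le hT hu (L ^ 2) (v := fun x => ‖fderiv ℝ θ x‖ ^ 2 * max (w.f x - (κ + δ)) 0 ^ 2)
    (fun x => by positivity) (fun x _ => mul_le_mul (pow_le_pow_left₀ (norm_nonneg _) (hL x) 2)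
      (pow_le_pow_left₀ (le_max_right _ _) (max_le_max (by linarith) le_rfl) 2) (sq_nonneg _)
      (sq_nonneg _)) fun x hx => by simp [(h2 x hx).2]
  have a5 : ∫ x in T', max (w.f x - (κ + δ)) 0 ^ 2 ≤ ip q q := by
    rw [ip_self, setIntegral_congr_fun hT' (g := fun x => q.f x ^ 2) fun x hx => by
      simp only [hq, h1 x hx, one_mul]]
    exact setIntegral_le_integral q.int_sq (.of_forall fun _ => sq_nonneg _)
  refine a5.trans (a2.trans (mul_le_mul (mul_le_mul_of_nonneg_left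
    (Real.rpow_le_rpow measureReal_nonneg a1 (by norm_num)) hCs.le) (hk.trans ((add_le_add
      (mul_le_mul_of_nonneg_left a3 (by positivity))
      (mul_le_mul_of_nonneg_left a4 (by positivity))).trans_eq (by ring))) (kin_nonneg q)
    (by positivity)))

end Vale.Agent.P363
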