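import Vale.Agent.P363.A.Fib3
import Vale.Agent.P363.A.Log
import Vale.Agent.P363.A.Sobolev
import Vale.Agent.P363.A.Min
import Vale.Agent.P363.H.Main

/-!
# P363 K/Defs

Definitions for block K (no task).
-/

open MeasureTheory Filter Topology Set
open scoped ContDiff

set_option linter.unusedSectionVars false

noncomputable section

namespace Vale.Agent.P363

/-- A closed spherical shell. -/
def sh (r s : ℝ) : Set E3 := {x | r ≤ ‖x‖ ∧ ‖x‖ ≤ s}

theorem mem_sh {r s : ℝ} {x : E3} : x ∈ sh r s ↔ r ≤ ‖x‖ ∧ ‖x‖ ≤ s := Iff.rfl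

theorem isCompact_sh (r s : ℝ) : IsCompact (sh r s) := by
  refine (isCompact_closedBall (0 : E3) s).of_isClosed_subset ?_ fun x hx => ?_
  · exact (isClosed_le continuous_const continuous_norm).inter
      (isClosed_le continuous_norm continuous_const)
  · simpa using hx.2

theorem measurableSet_sh (r s : ℝ) : MeasurableSet (sh r s) :=
  (isCompact_sh r s).isClosed.measurableSet

theorem volume_sh_ne_top (r s : ℝ) : volume (sh r s) ≠ ⊤ := (isCompact_sh r s).measure_lt_top.ne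

theorem sh_mono {r r' s s' : ℝ} (h1 : r' ≤ r) (h2 : s ≤ s') : sh r s ⊆ sh r' s' :=
  fun _ hx => ⟨h1.trans hx.1, hx.2.trans h2⟩

/-- The Wronskian of `a`, `b` tested against the gradient of `η`. -/
def wr (η a b : S e3) : ℝ := 1 / 2 * ∑ k, ∫ x, (a.f x * b.g k x - b.f x * a.g k x) * η.g k x

/-- `a` solves the eigenvalue equation with eigenvalue `E`. -/
def Eig (v : E3 → ℝ) (E : ℝ) (a : S e3) : Prop := ∀ b : S e3, qf v a b = E * ip a b

/-- The form is bounded below by `E` up to the rank one defect `δ |φ⟩⟨φ|`. -/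
def Gap (v : E3 → ℝ) (E δ : ℝ) (φ : S e3) : Prop :=
  ∀ a : S e3, E * ip a a - δ * ip φ a ^ 2 ≤ qf v a a

namespace Fib

variable {Y : Type} [MeasurableSpace Y] {ν : Measure Y} [SFinite ν]

/-- The density matrix in the basis of the five orbitals. -/
def G (A : Fib ν) (i j : Fin 5) : ℝ := A.gam (orb i).f (orb j).f

/-- The density matrix applied to `b`. -/
def app (A : Fib ν) (b : S e3) : S e3 := A.pr (A.red_mem b.mem)

/-- The state is close to the hydrogen ground manifold. -/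
structure Near (A : Fib ν) (θ : ℝ) : Prop where
  four : A.Four
  defect : A.defect ≤ θ
  g00 : 2 - θ ≤ A.G 0 0
  g0j : ∀ j, j ≠ 0 → |A.G 0 j| ≤ θ

/-- In addition the `2s` occupation is fractional and decoupled from the `2p` orbitals. -/
structure Good (A : Fib ν) (c θ : ℝ) : Prop extends A.Near θ where
  lo : c ≤ A.G 1 1
  hi : A.G 1 1 ≤ 2 - c
  g1k : ∀ k : Fin 3, |A.G 1 (k.addNat 2)| ≤ θ

theorem Near.mono {A : Fib ν} {θ θ' : ℝ} (h : A.Near θ) (hle : θ ≤ θ') : A.Near θ' :=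
  ⟨h.four, h.defect.trans hle, by linarith [h.g00], fun j hj => (h.g0j j hj).trans hle⟩

theorem Good.mono {A : Fib ν} {c θ θ' : ℝ} (h : A.Good c θ) (hle : θ ≤ θ') : A.Good c θ' :=
  ⟨h.toNear.mono hle, h.lo, h.hi, fun k => (h.g1k k).trans hle⟩

theorem G_symm (A : Fib ν) (i j : Fin 5) : A.G i j = A.G j i := A.bil_gam.symm (orb i) (orb j)

theorem ip_app (A : Fib ν) (a b : S e3) : ip a (A.app b) = A.gam a.f b.f :=
  A.ip_pr (A.red_mem b.mem) a.mem

theorem integral_red_sq (A : Fib ν) (φ : E3 → ℝ) : ∫ y, A.red φ y ^ 2 ∂ν = A.gam φ φ := by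
  simp only [gam, sq]

theorem app_sq_le (A : Fib ν) (b : S e3) : ∀ᵐ x, (A.app b).f x ^ 2 ≤ A.n x * A.gam b.f b.f := by
  have h := A.pr_sq_le (A.red_mem b.mem)
  rw [integral_red_sq] at h
  exact h

theorem hn_rem_app (A : Fib ν) (b : S e3) : hn (rem (A.app b)) ≤ A.defect * A.gam b.f b.f := by
  have h := A.hn_rem_pr (A.red_mem b.mem)
  rw [integral_red_sq] at h
  exact h

theorem Four.gam_le {A : Fib ν} (h : A.Four) (b : S e3) : A.gam b.f b.f ≤ 2 * ip b b := by
  rw [ip_self]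
  exact h.2 _ b.mem

theorem Four.G_le {A : Fib ν} (h : A.Four) (j : Fin 5) : A.G j j ≤ 2 := by
  have := h.gam_le (orb j)
  rw [ip_orb, if_pos rfl] at this
  simpa [G] using this

theorem G_nonneg (A : Fib ν) (j : Fin 5) : 0 ≤ A.G j j := A.gam_nonneg _

theorem G_sq_le (A : Fib ν) (i j : Fin 5) : A.G i j ^ 2 ≤ A.G i i * A.G j j :=
  A.bil_gam.cs (fun a => A.gam_nonneg a.f) (orb i) (orb j)

theorem Four.abs_G_le {A : Fib ν} (h : A.Four) (i j : Fin 5) : |A.G i j| ≤ 2 := by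
  have h1 := A.G_sq_le i j
  have h2 : A.G i i * A.G j j ≤ 2 * 2 :=
    mul_le_mul (h.G_le i) (h.G_le j) (A.G_nonneg j) (by norm_num)
  exact abs_le_of_sq_le_sq' (by nlinarith) (by norm_num) |> fun h => abs_le.2 h

end Fib

end Vale.Agent.P363
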