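import Vale.Agent.P363.K.Defs

/-!
# P363 K/Fin1  (TASK)

`β` from `exists_cut` with `r = 17/4`, `s = 19/4`; `θ x = β ‖x‖` is `Mul1` (`mul1_of_compact`).  `exists_out`: `w = p - θ p`, `p = a₊` (`posPart` with `c = 0`, `mul1`); `exists_inn`: `f = θ p`.
`rank_contra`: `Q = qf v - e₁ ip`, `B = Q + δ ip φ · ip φ ·` is `Bil` and nonnegative (`Gap`).  If `ip φ w > 0` put `χ = f - t w`, `t = ip φ f / ip φ w`; `ip φ χ = 0`, `B χ χ = Q f f - 2 t Q f w + t² Q w w ≤ 0`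
(`qf_disjoint`; `ip f w = 0` from the a.e. vanishing product), so `Q χ b = 0` for all `b` (`Bil.null`).  Test with `b = θ φ` (`mul1`): `Q w b = 0`, `Q f (φ - b) = 0` (disjoint supports), so
`0 = Q f φ = (e₀ - e₁) ip φ f < 0`.
-/

open MeasureTheory Filter Topology Set
open scoped ContDiff

set_option linter.unusedSectionVars false

noncomputable section

namespace Vale.Agent.P363

theorem kf1_cut : ∃ θ : E3 → ℝ, Mul1 θ ∧ (∀ x, ‖x‖ ≤ 4 → θ x = 1) ∧ ∀ x, 5 ≤ ‖x‖ → θ x = 0 := by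
  obtain ⟨K, -, h⟩ := exists_cut
  obtain ⟨β, -, -, -, h1, h2, -, -, -, h3, h4, -⟩ := h 4 5 (by norm_num) (by norm_num)
  exact ⟨fun x => β ‖x‖, mul1_of_compact (h3.of_le (by simp)) h4, fun x hx => h1 _ hx,
    fun x hx => h2 _ hx⟩

theorem kf1_parts (a : S e3) : ∃ (θ : E3 → ℝ) (p q : S e3), (∀ x, ‖x‖ ≤ 4 → θ x = 1) ∧
    (∀ x, 5 ≤ ‖x‖ → θ x = 0) ∧ (∀ x, p.f x = max (a.f x) 0) ∧ ∀ x, q.f x = θ x * p.f x := by
  obtain ⟨θ, h0, h1, h2⟩ := kf1_cut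
  obtain ⟨p, -, hp, -⟩ := exists_pos a
  exact ⟨θ, p, S.of (mul1 p h0), h1, h2, hp, fun _ => rfl⟩

theorem exists_out (a : S e3) (h : ∀ᵐ x, x ∈ sh 4 5 → a.f x ≤ 0) : ∃ w : S e3,
    ∀ᵐ x, w.f x = if 5 < ‖x‖ then max (a.f x) 0 else 0 := by
  obtain ⟨θ, p, q, h1, h2, hp, hq⟩ := kf1_parts a
  refine ⟨p - q, ?_⟩
  filter_upwards [h] with x hx
  rw [S.sub_f, hq, hp]
  split_ifs with h5
  · rw [h2 x h5.le]; ring
  · by_cases h4 : ‖x‖ ≤ 4
    · rw [h1 x h4]; ring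
    · rw [max_eq_right (hx ⟨(not_le.1 h4).le, not_lt.1 h5⟩)]; ring

theorem exists_inn (a : S e3) (h : ∀ᵐ x, x ∈ sh 4 5 → a.f x ≤ 0) : ∃ f : S e3,
    ∀ᵐ x, f.f x = if ‖x‖ < 4 then max (a.f x) 0 else 0 := by
  obtain ⟨θ, p, q, h1, h2, hp, hq⟩ := kf1_parts a
  refine ⟨q, ?_⟩
  filter_upwards [h] with x hx
  rw [hq, hp]
  split_ifs with h4
  · rw [h1 x h4.le]; ring
  · by_cases h5 : 5 ≤ ‖x‖
    · rw [h2 x h5]; ring
    · rw [max_eq_right (hx ⟨not_lt.1 h4, (not_le.1 h5).le⟩)]; ring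

theorem kf1_ip_disj {a b : S e3} (h : ∀ᵐ x, a.f x = 0 ∨ b.f x = 0) : ip a b = 0 := by
  unfold ip
  rw [← integral_zero (α := E3) (G := ℝ) (μ := volume)]
  refine integral_congr_ae ?_
  filter_upwards [h] with x hx
  rcases hx with h | h <;> simp [h]

theorem gap_bil {v : E3 → ℝ} (hv : FB e3 v) (E δ : ℝ) (φ : S e3) :
    Bil fun a b : S e3 => qf v a b - E * ip a b + δ * (ip φ a * ip φ b) := by
  have h1 := (hv.bil_qf.minus bil_ip E).comb (bil_ip.rankOne φ) 1 δ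
  simpa only [one_mul] using h1

theorem rank_contra {v : E3 → ℝ} (hv : FB e3 v) {e₀ e₁ : ℝ} (he : e₀ < e₁) {φ f w : S e3}
    (h0 : Eig v e₀ φ) (hg : Gap v e₁ (e₁ - e₀) φ) (hf : ∀ᵐ x : E3, 4 ≤ ‖x‖ → f.f x = 0)
    (hw : ∀ᵐ x : E3, ‖x‖ ≤ 5 → w.f x = 0) (hff : qf v f f ≤ e₁ * ip f f)
    (hww : qf v w w ≤ e₁ * ip w w) (hp : 0 < ip φ f) : ip φ w ≤ 0 := by
  by_contra hc
  have hc := not_le.1 hc
  have hB := gap_bil hv e₁ (e₁ - e₀) φ
  have hQ := hv.bil_qf.minus (bil_ip (e := e3)) e₁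
  have hB0 : ∀ a : S e3, 0 ≤ qf v a a - e₁ * ip a a + (e₁ - e₀) * (ip φ a * ip φ a) := fun a => by
    have := hg a
    nlinarith
  set t : ℝ := ip φ f / ip φ w with ht
  have hfw : ∀ᵐ x : E3, f.f x = 0 ∨ w.f x = 0 := by
    filter_upwards [hf, hw] with x h1 h2
    by_cases h : 4 ≤ ‖x‖
    · exact Or.inl (h1 h)
    · exact Or.inr (h2 (by linarith [not_le.1 h]))
  have hχ : ip φ (f - t • w) = 0 := by
    rw [bil_ip.sub_right, bil_ip.smul_right, ht, div_mul_cancel₀ _ hc.ne', sub_self]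
  have hQχ : qf v (f - t • w) (f - t • w) - e₁ * ip (f - t • w) (f - t • w) ≤ 0 := by
    have e1 := hQ.sub_sq f (t • w)
    have e2 := hQ.smul_right t f w
    have e3 := hQ.smul_sq t w
    rw [e1, e2, e3, qf_disjoint v hfw, kf1_ip_disj hfw]
    have : t ^ 2 * (qf v w w - e₁ * ip w w) ≤ 0 :=
      mul_nonpos_of_nonneg_of_nonpos (sq_nonneg t) (by linarith)
    linarith
  obtain ⟨θ, hθ, h1, h2⟩ := kf1_cut
  set b : S e3 := S.of (mul1 φ hθ) with hb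
  have hbf : ∀ x, b.f x = θ x * φ.f x := fun _ => rfl
  have hn := hB.null hB0 (a := f - t • w) (by rw [hχ]; linarith) b
  rw [hχ] at hn
  have hwb : ∀ᵐ x : E3, w.f x = 0 ∨ b.f x = 0 := by
    filter_upwards [hw] with x h
    by_cases h5 : ‖x‖ ≤ 5
    · exact Or.inl (h h5)
    · right; rw [hbf, h2 x (not_le.1 h5).le, zero_mul]
  have hfb : ∀ᵐ x : E3, f.f x = 0 ∨ (φ - b).f x = 0 := by
    filter_upwards [hf] with x h
    by_cases h4 : 4 ≤ ‖x‖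
    · exact Or.inl (h h4)
    · right; rw [S.sub_f, hbf, h1 x (not_le.1 h4).le]; ring
  have a1 := qf_disjoint v hwb
  have a2 := kf1_ip_disj hwb
  have a3 := qf_disjoint v hfb
  have a4 := kf1_ip_disj hfb
  rw [hv.bil_qf.sub_right] at a3
  rw [bil_ip.sub_right] at a4
  rw [hv.bil_qf.sub_left, bil_ip.sub_left, hv.bil_qf.smul, bil_ip.smul, a1, a2] at hn
  have a5 := h0 f
  rw [hv.bil_qf.symm] at a5
  have a6 := bil_ip.symm φ f
  have a7 : (e₁ - e₀) * ip φ f = 0 := by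
    have b1 : qf v f b = e₀ * ip φ f := by linarith
    have b2 : ip f b = ip φ f := by linarith
    rw [b1, b2] at hn
    linarith
  have := mul_pos (sub_pos.2 he) hp
  linarith

end Vale.Agent.P363
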