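import Vale.Agent.P363.K.Defs

/-!
# P363 K/Null  (TASK)

`B a b = qf v a b - E ip a b + δ ip φ a ip φ b` is `Bil` (`Bil.minus`, `Bil.plus`, `Bil.comb`, `Bil.rankOne`) and nonnegative on the diagonal (`Gap`).  `y ↦ B (sl y) (sl y)` is integrable with integral
`A.en v - 4 E + δ gam φ φ ≤ A.en v - 4 E + 2 δ ≤ 0` (`int_qf_sl`, `int_ip_sl`, `ip_sl`, `red_mem`, `Four.gam_le`), so it vanishes a.e. (`integral_eq_zero_iff_of_nonneg_ae`) and `δ (2 - gam φ φ) = 0`; `Bil.null`.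
`app_eq`: integrate `null_sl` against `Ξ = red b` (`qf_pr`; for the `ip` terms use `ip_sl`, `ip_app`, `gam` unfolded).
`two_phi`: `T a b = 2 ip a b - gam a b` is `Bil`, nonnegative, null at `φ`; test with `b = 2 φ - app φ` (`ip_app`), `ip_eq_zero`.  `phi_sq_le`: `app_sq_le`.
-/

open MeasureTheory Filter Topology Set
open scoped ContDiff

set_option linter.unusedSectionVars false

noncomputable section

namespace Vale.Agent.P363

variable {Y : Type} [MeasurableSpace Y] {ν : Measure Y} [SFinite ν]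

namespace Fib

theorem null_sl {A : Fib ν} (h4 : A.Four) {v : E3 → ℝ} (hv : FB e3 v) {E δ : ℝ} (hδ : 0 ≤ δ)
    {φ : S e3} (hφ : ip φ φ = 1) (hg : Gap v E δ φ) (hen : A.en v ≤ 4 * E - 2 * δ) :
    (∀ᵐ y ∂ν, ∀ b : S e3, qf v (A.sl y) b = E * ip (A.sl y) b - δ * (ip φ (A.sl y) * ip φ b)) ∧
      δ * (2 - A.gam φ.f φ.f) = 0 := by
  have hB := Bil.comb (hv.bil_qf.minus bil_ip E) (bil_ip.rankOne φ) 1 δ
  have h0 : ∀ a : S e3, 0 ≤ 1 * (qf v a a - E * ip a a) + δ * (ip φ a * ip φ a) := fun a => by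
    have := hg a
    nlinarith
  obtain ⟨i1, e1⟩ := A.int_qf_sl hv
  obtain ⟨i2, e2⟩ := A.int_ip_sl
  obtain ⟨i3, e3'⟩ := A.fib3_int_ip φ φ
  have i4 : Integrable (fun y => 1 * (qf v (A.sl y) (A.sl y) - E * ip (A.sl y) (A.sl y))) ν :=
    (i1.sub (i2.const_mul E)).const_mul 1
  have i5 : Integrable (fun y => δ * (ip φ (A.sl y) * ip φ (A.sl y))) ν := i3.const_mul δ
  have e4 : ∫ y, (1 * (qf v (A.sl y) (A.sl y) - E * ip (A.sl y) (A.sl y)) +
      δ * (ip φ (A.sl y) * ip φ (A.sl y))) ∂ν = A.en v - E * 4 + δ * A.gam φ.f φ.f := by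
    rw [integral_add i4 i5, integral_const_mul, integral_const_mul,
      integral_sub i1 (i2.const_mul E), integral_const_mul, e1, e2, e3', h4.1, one_mul]
  have h2 := h4.gam_le φ
  rw [hφ] at h2
  have h5 : 0 ≤ A.en v - E * 4 + δ * A.gam φ.f φ.f := by
    rw [← e4]
    exact integral_nonneg fun y => h0 _
  have h6 : 0 ≤ δ * (2 - A.gam φ.f φ.f) := mul_nonneg hδ (by linarith)
  have h7 : δ * (2 - A.gam φ.f φ.f) = 0 := by nlinarith
  refine ⟨?_, h7⟩
  have h8 := (integral_eq_zero_iff_of_nonneg_ae (Eventually.of_forall fun y => h0 (A.sl y))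
    (i4.add i5)).1 (by rw [e4]; nlinarith)
  filter_upwards [h8] with y hy b
  have h9 := hB.null h0 (a := A.sl y) (le_of_eq hy) b
  linarith

theorem app_eq {A : Fib ν} {v : E3 → ℝ} (hv : FB e3 v) {E δ : ℝ} {φ : S e3}
    (h : ∀ᵐ y ∂ν, ∀ b : S e3, qf v (A.sl y) b = E * ip (A.sl y) b - δ * (ip φ (A.sl y) * ip φ b))
    (a b : S e3) :
    qf v (A.app a) b = E * ip (A.app a) b - δ * (ip φ (A.app a) * ip φ b) := by
  obtain ⟨_, e1⟩ := A.qf_pr (A.red_mem a.mem) hv b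
  obtain ⟨i2, e2⟩ := A.fib3_int_ip b a
  obtain ⟨i3, e3'⟩ := A.fib3_int_ip φ a
  have e4 : ∫ y, qf v (A.sl y) b * A.red a.f y ∂ν =
      ∫ y, (E * (ip b (A.sl y) * ip a (A.sl y)) -
        δ * ip φ b * (ip φ (A.sl y) * ip a (A.sl y))) ∂ν := by
    refine integral_congr_ae ?_
    filter_upwards [h, A.ip_sl a] with y h1 h2
    rw [h1 b, ← h2, bil_ip.symm (A.sl y) b]
    ring
  rw [integral_sub (i2.const_mul _) (i3.const_mul _), integral_const_mul, integral_const_mul,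
    e2, e3'] at e4
  rw [bil_ip.symm (A.app a) b, ip_app, ip_app, app, ← e1, e4]
  ring

theorem two_phi {A : Fib ν} (h4 : A.Four) {φ : S e3} (hφ : ip φ φ = 1) (h2 : A.gam φ.f φ.f = 2) :
    ∀ᵐ x, (A.app φ).f x = 2 * φ.f x := by
  have hT := (bil_ip (e := e3)).comb A.bil_gam 2 (-1)
  have h0 : ∀ a : S e3, 0 ≤ 2 * ip a a + -1 * A.gam a.f a.f := fun a => by
    have := h4.gam_le a
    linarith
  have h1 := hT.null h0 (a := φ) (by rw [hφ, h2]; norm_num) ((2 : ℝ) • φ - A.app φ)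
  have h3 : ip ((2 : ℝ) • φ - A.app φ) ((2 : ℝ) • φ - A.app φ) = 0 := by
    rw [bil_ip.sub_left, bil_ip.smul, bil_ip.symm (A.app φ), ip_app,
      A.bil_gam.symm ((2 : ℝ) • φ - A.app φ) φ]
    linarith
  filter_upwards [ip_eq_zero.1 h3] with x hx
  simp only [S.sub_f, S.smul_f] at hx
  linarith

theorem phi_sq_le {A : Fib ν} (h4 : A.Four) {φ : S e3} (hφ : ip φ φ = 1) (h2 : A.gam φ.f φ.f = 2) :
    ∀ᵐ x, φ.f x ^ 2 ≤ A.n x := by
  filter_upwards [two_phi h4 hφ h2, A.app_sq_le φ] with x h1 h3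
  rw [h1, h2] at h3
  nlinarith [sq_nonneg (φ.f x)]

end Fib

end Vale.Agent.P363
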