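import Vale.Agent.P363.K.Defs

/-!
# P363 K/Spec  (TASK)

One-body dichotomy.  `e₀ = inf {qf v a a | ip a a = 1}` (bounded below by `FB.coercive`, nonempty by `orb 0`, `ip_orb`).  If `E ≤ 4 e₀` take the left case (`Gap v e₀ 0 0`; scale `a` to a unit vector,
`ip a a = 0` gives `qf v a a = qf v 0 a = 0` by `ip_eq_zero`, `qf_congr`).  Otherwise `σ = E/2 - 2 e₀ > 0`; pick a unit `d` with `qf v d d ≤ e₀ + σ/4`.  `orth_lower`: for `b ⟂ d`: `(E/2 - qf d d) ip b b ≤ qf b b`.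
With `Q = qf - e₀ ip ≥ 0` and `b = b' + α d`: `Q b' b' ≤ 2 Q b b + 2 α² Q d d` (`Bil.two_sub`), so `exists_min` applies with `N = ⊤`, `A = e₀ + 3σ/8`, `C = 5σ/8`.  It gives a unit eigenfunction `a` with `E' ip b b ≤ qf b b` for all `b`
(use `ip a b ^ 2 ≤ ip b b`, `Bil.cs`), `E' ≤ qf d d`.  `exists_abs` and `Bil.null` for `qf - E' ip` give the nonnegative eigenfunction `φ = |a|`.  Take `e₀ := E'`, `e₁ := E/2 - E'`, and use `orth_lower` with `d = φ`.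
-/

open MeasureTheory Filter Topology Set
open scoped ContDiff

set_option linter.unusedSectionVars false

noncomputable section

namespace Vale.Agent.P363

theorem orth_lower {v : E3 → ℝ} (hv : FB e3 v) {E : ℝ}
    (hE : ∀ g₁ g₂ : S e3, ip g₁ g₁ = 1 → ip g₂ g₂ = 1 → ip g₁ g₂ = 0 →
      E ≤ 2 * qf v g₁ g₁ + 2 * qf v g₂ g₂) {d : S e3} (hd : ip d d = 1) {b : S e3}
    (hb : ip d b = 0) : (E / 2 - qf v d d) * ip b b ≤ qf v b b := by
  have h := min_nonneg hv (E := E / 2 - qf v d d)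
    { carrier := {c | ip d c = 0}
      add_mem' := fun {x y} hx hy => by
        have hx' : ip d x = 0 := hx
        have hy' : ip d y = 0 := hy
        change ip d (x + y) = 0
        rw [bil_ip.add_right, hx', hy', add_zero]
      zero_mem' := bil_ip.zero_right d
      smul_mem' := fun t x hx => by
        have hx' : ip d x = 0 := hx
        change ip d (t • x) = 0
        rw [bil_ip.smul_right, hx', mul_zero] }
    (fun c hc h1 => by linarith [hE d c hd h1 hc]) b hb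
  linarith

theorem ks_dich {v : E3 → ℝ} (hv : FB e3 v) {E : ℝ}
    (hE : ∀ g₁ g₂ : S e3, ip g₁ g₁ = 1 → ip g₂ g₂ = 1 → ip g₁ g₂ = 0 →
      E ≤ 2 * qf v g₁ g₁ + 2 * qf v g₂ g₂) :
    (∃ e₀ : ℝ, Gap v e₀ 0 (orb 0) ∧ E ≤ 4 * e₀) ∨
    ∃ (φ : S e3) (e₀ e₁ : ℝ), e₀ < e₁ ∧ (∀ᵐ x, 0 ≤ φ.f x) ∧ ip φ φ = 1 ∧ Eig v e₀ φ ∧
      Gap v e₁ (e₁ - e₀) φ ∧ E ≤ 2 * e₀ + 2 * e₁ := by
  obtain ⟨C', -, hC⟩ := hv.coercive
  have hT : ({t | ∃ b : S e3, ip b b = 1 ∧ qf v b b = t} : Set ℝ).Nonempty :=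
    ⟨_, orb 0, by rw [ip_orb, if_pos rfl], rfl⟩
  have hT' : BddBelow ({t | ∃ b : S e3, ip b b = 1 ∧ qf v b b = t} : Set ℝ) := by
    refine ⟨-C' / 2, ?_⟩
    rintro _ ⟨b, h1, rfl⟩
    have h2 := hC b
    rw [h1] at h2
    linarith [hn_nonneg b]
  have h0 : ∀ b : S e3,
      0 ≤ qf v b b - sInf {t | ∃ b : S e3, ip b b = 1 ∧ qf v b b = t} * ip b b := fun b =>
    min_nonneg hv ⊤ (fun c _ h1 => csInf_le hT' ⟨c, h1, rfl⟩) b trivial
  have h1 := fun t (ht : sInf {t | ∃ b : S e3, ip b b = 1 ∧ qf v b b = t} < t) =>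
    exists_lt_of_csInf_lt hT ht
  generalize sInf {t | ∃ b : S e3, ip b b = 1 ∧ qf v b b = t} = e₀ at h0 h1
  rcases le_or_gt E (4 * e₀) with hle | hlt
  · exact Or.inl ⟨e₀, fun a => by linarith [h0 a], hle⟩
  right
  obtain ⟨σ, hσ⟩ : ∃ σ, σ = E / 2 - 2 * e₀ := ⟨_, rfl⟩
  have hσ0 : 0 < σ := by linarith
  obtain ⟨_, ⟨d, hd, rfl⟩, hq⟩ := h1 (e₀ + σ / 4) (by linarith)
  have hQ := hv.bil_qf.minus bil_ip e₀
  obtain ⟨a, -, E', ha, -, hE', he, hg⟩ := exists_min hv ⊤ (fun _ _ _ _ => trivial) (d := d) trivial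
    hd (A := e₀ + 3 * σ / 8) (C := 5 * σ / 8) (by linarith) fun b _ => by
      have e1 : ip d (b - ip d b • d) = 0 := by rw [bil_ip.sub_right, bil_ip.smul_right, hd]; ring
      have e2 : ip (b - ip d b • d) (b - ip d b • d) = ip b b - ip d b ^ 2 := by
        rw [bil_ip.sub_sq, bil_ip.smul_sq, bil_ip.smul_right, hd, bil_ip.symm b d]; ring
      have g1 := orth_lower hv hE hd e1
      have g2 := hQ.two_sub h0 b (ip d b • d)
      have g3 := ip_nonneg (b - ip d b • d)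
      simp only [hv.bil_qf.smul_sq, bil_ip.smul_sq, hd] at g2
      rw [e2] at g1 g2 g3
      nlinarith [mul_nonneg g3 (sub_pos.2 hq).le, mul_nonneg (sq_nonneg (ip d b)) (sub_pos.2 hq).le]
  have h2 : ∀ b : S e3, 0 ≤ qf v b b - E' * ip b b := fun b => by
    have g1 := bil_ip.cs ip_nonneg a b
    rw [ha, one_mul] at g1
    have g2 : 0 ≤ (e₀ + 3 * σ / 8 - E') * (ip b b - ip a b ^ 2) :=
      mul_nonneg (by linarith) (by linarith)
    linarith [hg b trivial]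
  obtain ⟨φ, hφ, hφ'⟩ := exists_abs a
  have g1 : ip φ φ = 1 := by
    rw [← ha, ip_self, ip_self]
    simp only [hφ, sq_abs]
  have g2 : qf v φ φ = E' := by rw [hφ', he a trivial, ha, mul_one]
  have g3 : Eig v E' φ := fun b =>
    sub_eq_zero.1 ((hv.bil_qf.minus bil_ip E').null h2 (by rw [g1, g2]; simp) b)
  refine ⟨φ, E', E / 2 - E', by linarith, ae_of_all _ fun x => by rw [hφ]; exact abs_nonneg _, g1, g3,
    fun b => ?_, by linarith⟩
  have e1 : ip φ (b - ip φ b • φ) = 0 := by rw [bil_ip.sub_right, bil_ip.smul_right, g1]; ring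
  have g4 := orth_lower hv hE g1 e1
  rw [bil_ip.sub_sq, bil_ip.smul_sq, bil_ip.smul_right, g1, bil_ip.symm b φ, hv.bil_qf.sub_sq,
    hv.bil_qf.smul_sq, hv.bil_qf.smul_right, hv.bil_qf.symm b φ, g3 b, g2] at g4
  nlinarith

end Vale.Agent.P363
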