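import Vale.Agent.P363.K.Defs

/-!
# P363 K/Wr  (TASK)

`wr_eq`: `p = a η`, `q = b η` are in `S` by `mul_bdd` (`S.of`); `pot v b p = pot v a q` pointwise; `kin b p - kin a q = wr η a b` (expand, `integral_sub`, `integral_add`; integrability: `S.int_gmul` with the elements `p`, `q`,
and `(a ∂b - b ∂a) ∂η = ∂b ∂p - ∂a ∂q` pointwise).  `wr_bil`: `η.g k` bounded, so all integrands are integrable (`Integrable.bdd_mul`, `MemLp.integrable_mul`); the bound is Cauchy-Schwarz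
(or `|a ∂b| ≤ (t a² + ∂b²/t)/2`; simplest: `∫ |a| |∂ₖ b| ≤ √(∫ a²) √(∫ (∂ₖ b)²)` by `integral_mul_le_Lp_mul_Lq_of_nonneg` or `abs_real_inner_le_norm`, `ip a a ≤ hn a`, `∫ (∂ₖ b)² ≤ 2 kin b b`).
-/

open MeasureTheory Filter Topology Set
open scoped ContDiff

set_option linter.unusedSectionVars false

noncomputable section

namespace Vale.Agent.P363

theorem kwr_cs {f g : E3 → ℝ} (hf : MemLp f 2 volume) (hg : MemLp g 2 volume) :
    |∫ x, f x * g x| ≤ √(∫ x, f x ^ 2) * √(∫ x, g x ^ 2) := by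
  have h1 := lim_inner hf hf
  have h2 := lim_inner hg hg
  rw [real_inner_self_eq_norm_sq] at h1 h2
  simp only [sq]
  rw [← lim_inner hf hg, ← h1, ← h2, Real.sqrt_sq (norm_nonneg _), Real.sqrt_sq (norm_nonneg _)]
  exact abs_real_inner_le_norm _ _

theorem kwr_mem (η a : S e3) {C : ℝ} (hη : ∀ k x, |η.g k x| ≤ C) (k : Fin 3) :
    MemLp (fun x => η.g k x * a.f x) 2 volume :=
  ch_bmul (η.gmem k).1 (ae_of_all _ (hη k)) a.mem

theorem kwr_int (η a b : S e3) {C : ℝ} (hη : ∀ k x, |η.g k x| ≤ C) (k : Fin 3) :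
    Integrable fun x => (η.g k x * a.f x) * b.g k x :=
  (kwr_mem η a hη k).integrable_mul (b.gmem k)

theorem kwr_split (η a b : S e3) {C : ℝ} (hη : ∀ k x, |η.g k x| ≤ C) :
    wr η a b = 1 / 2 * ∑ k, ((∫ x, (η.g k x * a.f x) * b.g k x) -
      ∫ x, (η.g k x * b.f x) * a.g k x) := by
  unfold wr
  congr 1
  refine Finset.sum_congr rfl fun k _ => ?_
  rw [← integral_sub (kwr_int η a b hη k) (kwr_int η b a hη k)]
  exact integral_congr_ae (ae_of_all _ fun x => by ring)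

theorem kwr_g_le (b : S e3) (k : Fin 3) : ∫ x, b.g k x ^ 2 ≤ 4 * hn b := by
  have h := lim_g b 0 k
  simp only [S.zero_g, sub_zero] at h
  linarith [hn_nonneg b]

theorem kwr_one (η a b : S e3) {C : ℝ} (hη : ∀ k x, |η.g k x| ≤ C) (k : Fin 3) :
    |∫ x, (η.g k x * a.f x) * b.g k x| ≤ 2 * C * √(hn a) * √(hn b) := by
  have hC : 0 ≤ C := (abs_nonneg _).trans (hη 0 0)
  refine (kwr_cs (kwr_mem η a hη k) (b.gmem k)).trans ?_
  have h1 : ∫ x, (η.g k x * a.f x) ^ 2 ≤ C ^ 2 * hn a := by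
    refine le_trans ?_ (mul_le_mul_of_nonneg_left (ip_le_hn a) (sq_nonneg C))
    rw [ip_self, ← integral_const_mul]
    refine integral_mono (kwr_mem η a hη k).integrable_sq (a.int_sq.const_mul _) fun x => ?_
    have h2 : η.g k x ^ 2 ≤ C ^ 2 := sq_le_sq' (by linarith [(abs_le.1 (hη k x)).1])
      (abs_le.1 (hη k x)).2
    simp only [mul_pow]
    exact mul_le_mul_of_nonneg_right h2 (sq_nonneg _)
  have h3 : √(∫ x, (η.g k x * a.f x) ^ 2) ≤ C * √(hn a) := by
    refine (Real.sqrt_le_sqrt h1).trans ?_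
    rw [Real.sqrt_mul (sq_nonneg C), Real.sqrt_sq hC]
  have h4 : √(∫ x, b.g k x ^ 2) ≤ 2 * √(hn b) := by
    refine (Real.sqrt_le_sqrt (kwr_g_le b k)).trans ?_
    rw [Real.sqrt_mul (by norm_num), show (4 : ℝ) = 2 ^ 2 by norm_num, Real.sqrt_sq (by norm_num)]
  calc _ ≤ (C * √(hn a)) * (2 * √(hn b)) :=
        mul_le_mul h3 h4 (Real.sqrt_nonneg _) (by positivity)
    _ = _ := by ring

theorem wr_eq {v : E3 → ℝ} (hv : FB e3 v) (η a b : S e3) {C : ℝ} (hη : ∀ᵐ x, |η.f x| ≤ C)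
    (ha : ∀ᵐ x, |a.f x| ≤ C) (hb : ∀ᵐ x, |b.f x| ≤ C) :
    ∃ p q : S e3, (∀ x, p.f x = a.f x * η.f x) ∧ (∀ x, q.f x = b.f x * η.f x) ∧
      wr η a b = qf v b p - qf v a q := by
  refine ⟨S.of (mul_bdd a η ha hη), S.of (mul_bdd b η hb hη), fun _ => rfl, fun _ => rfl, ?_⟩
  have h1 : pot v b (S.of (mul_bdd a η ha hη)) = pot v a (S.of (mul_bdd b η hb hη)) := by
    unfold pot
    exact integral_congr_ae (ae_of_all _ fun x => by simp only [S.of_f]; ring)
  have h2 : kin b (S.of (mul_bdd a η ha hη)) - kin a (S.of (mul_bdd b η hb hη)) = wr η a b := by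
    unfold kin wr
    rw [← mul_sub, ← Finset.sum_sub_distrib]
    congr 1
    refine Finset.sum_congr rfl fun k _ => ?_
    rw [← integral_sub (S.int_gmul b (S.of (mul_bdd a η ha hη)) k k)
      (S.int_gmul a (S.of (mul_bdd b η hb hη)) k k)]
    exact integral_congr_ae (ae_of_all _ fun x => by simp only [S.of_g]; ring)
  unfold qf
  rw [h1, ← h2]
  ring

theorem wr_swap (η a b : S e3) : wr η a b = -wr η b a := by
  unfold wr
  rw [← mul_neg, ← Finset.sum_neg_distrib]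
  congr 1
  refine Finset.sum_congr rfl fun k _ => ?_
  rw [← integral_neg]
  exact integral_congr_ae (ae_of_all _ fun x => by ring)

theorem wr_neg (η a b : S e3) : wr η a (-b) = -wr η a b := by
  unfold wr
  rw [← mul_neg, ← Finset.sum_neg_distrib]
  congr 1
  refine Finset.sum_congr rfl fun k _ => ?_
  rw [← integral_neg]
  exact integral_congr_ae (ae_of_all _ fun x => by simp only [S.neg_f, S.neg_g]; ring)

theorem wr_eig {v : E3 → ℝ} (hv : FB e3 v) (η : S e3) {a b : S e3} {C : ℝ} (hη : ∀ᵐ x, |η.f x| ≤ C)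
    (ha : ∀ᵐ x, |a.f x| ≤ C) (hb : ∀ᵐ x, |b.f x| ≤ C) {e₀ e₁ : ℝ} (h0 : Eig v e₀ a) (h1 : Eig v e₁ b) :
    wr η a b = (e₁ - e₀) * ∫ x, η.f x * (a.f x * b.f x) := by
  obtain ⟨p, q, hp, hq, h⟩ := wr_eq hv η a b hη ha hb
  have h2 : ip b p = ∫ x, η.f x * (a.f x * b.f x) :=
    integral_congr_ae (ae_of_all _ fun x => by simp only [hp]; ring)
  have h3 : ip a q = ∫ x, η.f x * (a.f x * b.f x) :=
    integral_congr_ae (ae_of_all _ fun x => by simp only [hq]; ring)
  rw [h, h0 q, h1 p, h2, h3]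
  ring

theorem kwr_add (η : S e3) {C : ℝ} (hη : ∀ k x, |η.g k x| ≤ C) (a a' b : S e3) :
    wr η (a + a') b = wr η a b + wr η a' b := by
  have hi : ∀ (c : S e3) (k : Fin 3),
      Integrable fun x => (c.f x * b.g k x - b.f x * c.g k x) * η.g k x := fun c k =>
    ((kwr_int η c b hη k).sub (kwr_int η b c hη k)).congr
      (ae_of_all _ fun x => by simp only [Pi.sub_apply]; ring)
  unfold wr
  rw [← mul_add, ← Finset.sum_add_distrib]
  congr 1
  refine Finset.sum_congr rfl fun k _ => ?_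
  rw [← integral_add (hi a k) (hi a' k)]
  exact integral_congr_ae (ae_of_all _ fun x => by simp only [S.add_f, S.add_g]; ring)

theorem kwr_smul (η : S e3) (t : ℝ) (a b : S e3) : wr η (t • a) b = t * wr η a b := by
  unfold wr
  rw [mul_left_comm, Finset.mul_sum Finset.univ _ t]
  congr 1
  refine Finset.sum_congr rfl fun k _ => ?_
  rw [← integral_const_mul]
  exact integral_congr_ae (ae_of_all _ fun x => by simp only [S.smul_f, S.smul_g]; ring)

theorem wr_bil (η : S e3) {C : ℝ} (hη : ∀ k x, |η.g k x| ≤ C) :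
    (∀ a a' b, wr η (a + a') b = wr η a b + wr η a' b) ∧
    (∀ (t : ℝ) a b, wr η (t • a) b = t * wr η a b) ∧
    (∀ a b b', wr η a (b + b') = wr η a b + wr η a b') ∧
    (∀ (t : ℝ) a b, wr η a (t • b) = t * wr η a b) ∧
    ∀ a b, |wr η a b| ≤ 6 * C * √(hn a) * √(hn b) := by
  refine ⟨kwr_add η hη, kwr_smul η, fun a b b' => ?_, fun t a b => ?_, fun a b => ?_⟩
  · rw [wr_swap η a (b + b'), kwr_add η hη, wr_swap η a b, wr_swap η a b']
    ring
  · rw [wr_swap η a (t • b), kwr_smul, wr_swap η a b]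
    ring
  · rw [kwr_split η a b hη, Fin.sum_univ_three]
    have a0 := abs_le.1 (kwr_one η a b hη 0)
    have a1 := abs_le.1 (kwr_one η a b hη 1)
    have a2 := abs_le.1 (kwr_one η a b hη 2)
    have b0 := abs_le.1 (kwr_one η b a hη 0)
    have b1 := abs_le.1 (kwr_one η b a hη 1)
    have b2 := abs_le.1 (kwr_one η b a hη 2)
    have e : 2 * C * √(hn b) * √(hn a) = 2 * C * √(hn a) * √(hn b) := by ring
    rw [e] at b0 b1 b2
    rw [abs_le]
    constructor <;> linarith [a0.1, a0.2, a1.1, a1.2, a2.1, a2.2, b0.1, b0.2, b1.1, b1.2, b2.1, b2.2]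

end Vale.Agent.P363
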